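import Mathlib
set_option autoImplicit false
open MeasureTheory ProbabilityTheory Filter Set
open scoped Topology ENNReal unitInterval

namespace Crest.Agent.OT3


/-- the cdf of an atomless probability measure pushes it to the uniform law -/
theorem exists_map_uniform (μ : Measure ℝ) [IsProbabilityMeasure μ] (hna : ∀ x, μ {x} = 0) :
    ∃ U : ℝ → I, Measurable U ∧ μ.map U = volume := by
  set F := cdf μ with hF
  have hcont : Continuous F := by
    rw [continuous_iff_continuousAt]
    intro a
    rw [F.mono.continuousAt_iff_leftLim_eq_rightLim, F.rightLim_eq]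
    have h1 := F.measure_singleton a
    rw [hF, measure_cdf, hna] at h1
    have h2 : F a - Function.leftLim F a ≤ 0 := by
      rw [← hF] at h1
      exact ENNReal.ofReal_eq_zero.1 h1.symm
    have h3 : Function.leftLim F a ≤ F a := F.mono.leftLim_le le_rfl
    linarith
  have h0 : ∀ x, 0 ≤ F x := cdf_nonneg μ
  have h1 : ∀ x, F x ≤ 1 := cdf_le_one μ
  refine ⟨fun x => ⟨F x, h0 x, h1 x⟩, ?_, ?_⟩
  · exact (hcont.measurable).subtype_mk
  · have hm : Measurable (fun x => (⟨F x, h0 x, h1 x⟩ : I)) := (hcont.measurable).subtype_mk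
    have : IsProbabilityMeasure (μ.map (fun x => (⟨F x, h0 x, h1 x⟩ : I))) :=
      Measure.isProbabilityMeasure_map hm.aemeasurable
    refine Measure.ext_of_Iic _ _ fun t => ?_
    rw [Measure.map_apply hm measurableSet_Iic, unitInterval.volume_Iic]
    have hpre : (fun x => (⟨F x, h0 x, h1 x⟩ : I)) ⁻¹' (Iic t) = {x | F x ≤ t} := by
      ext x
      simp only [mem_preimage, mem_Iic, Set.mem_ofPred_eq]
      rfl
    rw [hpre]
    by_cases ht1 : (t : ℝ) = 1
    · have : {x | F x ≤ t} = univ := by
        ext x; simp [ht1, h1 x]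
      rw [this, measure_univ, ht1]; simp
    have ht1' : (t : ℝ) < 1 := lt_of_le_of_ne t.2.2 ht1
    set A := {x | F x ≤ t} with hA
    have hclosed : IsClosed A := isClosed_le hcont continuous_const
    obtain ⟨c, hc⟩ : ∃ c, (t : ℝ) < F c := by
      have := (tendsto_cdf_atTop μ).eventually (lt_mem_nhds ht1')
      exact this.exists
    have hbdd : BddAbove A := ⟨c, fun x hx => by
      by_contra hcx
      push Not at hcx
      have h5 : F c ≤ F x := F.mono hcx.le
      have h6 : F x ≤ t := hx
      linarith⟩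
    rcases A.eq_empty_or_nonempty with he | hne
    · rw [he, measure_empty]
      have ht0 : (t : ℝ) ≤ 0 := by
        by_contra hpos
        push Not at hpos
        obtain ⟨x, hx⟩ := ((tendsto_cdf_atBot μ).eventually (gt_mem_nhds hpos)).exists
        have : x ∈ A := le_of_lt hx
        rw [he] at this
        exact this
      symm
      simpa using ht0
    · set a := sSup A with ha
      have haA : a ∈ A := hclosed.csSup_mem hne hbdd
      have hAa : A = Iic a := by
        ext x
        constructor
        · intro hx; exact le_csSup hbdd hx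
        · intro hx
          have h5 : F x ≤ F a := F.mono hx
          exact h5.trans haA
      have hat : F a = t := by
        apply le_antisymm haA
        have hac : a ≤ c := by
          by_contra hh
          push Not at hh
          have h5 : F c ≤ F a := F.mono hh.le
          have h6 : F a ≤ t := haA
          linarith
        obtain ⟨b, hb, hb2⟩ := intermediate_value_Icc hac hcont.continuousOn
          (show (t : ℝ) ∈ Icc (F a) (F c) from ⟨haA, hc.le⟩)
        have hbA : b ∈ A := le_of_eq hb2
        have hba : b ≤ a := le_csSup hbdd hbA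
        rw [← hb2]
        exact F.mono hba
      rw [hAa, ← ofReal_cdf, ← hF, hat]


section doubling
variable {E : Type*} [MeasurableSpace E] [StandardBorelSpace E] [Nonempty E]

theorem exists_doubling_aux (ν : Measure E) [IsFiniteMeasure ν] (hna : ∀ x, ν {x} = 0) :
    ∃ T : E → E × Bool, Measurable T ∧ ∀ φ : E × Bool → ℝ≥0∞, Measurable φ →
      ∫⁻ x, φ (T x) ∂ν = (1 / 2) * (∫⁻ x, φ (x, true) ∂ν + ∫⁻ x, φ (x, false) ∂ν) := by
  by_cases hν : ν = 0
  · refine ⟨fun x => (x, true), by fun_prop, fun φ _ => ?_⟩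
    simp [hν]
  have hm0 : ν univ ≠ 0 := by rwa [Ne, Measure.measure_univ_eq_zero]
  have hmt : ν univ ≠ ∞ := measure_ne_top _ _
  set c := ν univ with hc
  set ν' := c⁻¹ • ν with hν'
  have hprob : IsProbabilityMeasure ν' := ⟨by
    rw [hν', Measure.smul_apply, smul_eq_mul, ← hc, ENNReal.inv_mul_cancel hm0 hmt]⟩
  set e := embeddingReal E with he
  have hemb : MeasurableEmbedding e := measurableEmbedding_embeddingReal E
  have hp2 : IsProbabilityMeasure (ν'.map e) := Measure.isProbabilityMeasure_map hemb.measurable.aemeasurable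
  obtain ⟨U, hU, hUmap⟩ := exists_map_uniform (ν'.map e) (fun y => by
    rw [hemb.map_apply]
    have hsub : (e ⁻¹' {y}).Subsingleton := by
      intro a ha b hb
      apply hemb.injective
      rw [mem_preimage, mem_singleton_iff] at ha hb
      rw [ha, hb]
    rcases hsub.eq_empty_or_singleton with h | ⟨x, h⟩
    · rw [h, measure_empty]
    · rw [h, hν', Measure.smul_apply, hna]; simp)
  set lam : Measure (E × Bool) := (1 / 2 : ℝ≥0∞) • (ν'.map (fun x => (x, true)) + ν'.map (fun x => (x, false)))
    with hlam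
  have hm1 : Measurable (fun x : E => (x, true)) := by fun_prop
  have hm2 : Measurable (fun x : E => (x, false)) := by fun_prop
  have hlp : IsProbabilityMeasure lam := ⟨by
    rw [hlam, Measure.smul_apply, Measure.add_apply, Measure.map_apply hm1 MeasurableSet.univ,
      Measure.map_apply hm2 MeasurableSet.univ]
    simp only [preimage_univ, measure_univ, smul_eq_mul]
    rw [one_add_one_eq_two, one_div, ENNReal.inv_mul_cancel (by simp) (by simp)]⟩
  obtain ⟨f, hf, hfmap⟩ := lam.exists_measurable_map_eq
  refine ⟨fun x => f (U (e x)), hf.comp (hU.comp hemb.measurable), fun φ hφ => ?_⟩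
  have h1 : ∫⁻ x, φ (f (U (e x))) ∂ν' = ∫⁻ y, φ y ∂lam := by
    have hcomp : ν'.map (fun x => f (U (e x))) = lam := by
      rw [← hfmap, ← hUmap, Measure.map_map hf hU, Measure.map_map (hf.comp hU) hemb.measurable]
      rfl
    rw [← hcomp]
    exact (lintegral_map hφ (hf.comp (hU.comp hemb.measurable))).symm
  have h2 : ∫⁻ y, φ y ∂lam = (1 / 2) * (∫⁻ x, φ (x, true) ∂ν' + ∫⁻ x, φ (x, false) ∂ν') := by
    rw [hlam, lintegral_smul_measure, lintegral_add_measure, lintegral_map hφ hm1,
      lintegral_map hφ hm2, smul_eq_mul]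
  have hint : ∀ g : E → ℝ≥0∞, ∫⁻ x, g x ∂ν = c * ∫⁻ x, g x ∂ν' := fun g => by
    rw [hν', lintegral_smul_measure, smul_eq_mul, ← mul_assoc, ENNReal.mul_inv_cancel hm0 hmt,
      one_mul]
  rw [hint, hint, hint, h1, h2]
  ring

end doubling

section doubling2
variable {E : Type*} [MetricSpace E] [TopologicalSpace.SeparableSpace E] [Nonempty E]
  [MeasurableSpace E] [BorelSpace E] [StandardBorelSpace E]

theorem exists_doubling (μ : Measure E) [IsFiniteMeasure μ] (hna : ∀ x, μ {x} = 0)
    {ε : ℝ} (hε : 0 < ε) :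
    ∃ S : E → E × Bool, Measurable S ∧ (∀ φ : E × Bool → ℝ≥0∞, Measurable φ →
      ∫⁻ x, φ (S x) ∂μ = (1 / 2) * (∫⁻ x, φ (x, true) ∂μ + ∫⁻ x, φ (x, false) ∂μ)) ∧
      ∀ᵐ x ∂μ, dist (S x).1 x ≤ ε := by
  classical
  set p : ℕ → E := TopologicalSpace.denseSeq E with hp
  have hex : ∀ x, ∃ k, dist x (p k) < ε / 2 := by
    intro x
    obtain ⟨k, hk⟩ := (TopologicalSpace.denseRange_denseSeq E).exists_dist_lt x (half_pos hε)
    exact ⟨k, hk⟩
  set K : E → ℕ := fun x => Nat.find (hex x) with hK
  have hmeas : ∀ k, MeasurableSet {x | dist x (p k) < ε / 2} := fun k =>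
    measurableSet_lt (by fun_prop) measurable_const
  have hKm : Measurable K := measurable_find hex hmeas
  set Q : ℕ → Set E := fun k => K ⁻¹' {k} with hQ
  have hQm : ∀ k, MeasurableSet (Q k) := fun k => hKm (measurableSet_singleton k)
  have hQd : Pairwise (Function.onFun Disjoint Q) := by
    intro i j hij
    rw [Function.onFun, Set.disjoint_left]
    intro x hx hx'
    rw [hQ] at hx hx'
    simp only [mem_preimage, mem_singleton_iff] at hx hx'
    exact hij (hx ▸ hx')
  have hQu : ⋃ k, Q k = univ := by
    ext x; simp [hQ]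
  have hT : ∀ k, ∃ T : E → E × Bool, Measurable T ∧ ∀ φ : E × Bool → ℝ≥0∞, Measurable φ →
      ∫⁻ x in Q k, φ (T x) ∂μ = (1 / 2) * (∫⁻ x in Q k, φ (x, true) ∂μ
        + ∫⁻ x in Q k, φ (x, false) ∂μ) := fun k =>
    exists_doubling_aux (μ.restrict (Q k)) (fun x => by
      have := Measure.restrict_apply_le (μ := μ) (Q k) {x}
      rw [hna] at this
      exact le_antisymm this bot_le)
  choose T hTm hTi using hT
  have hsum : ∀ g : E → ℝ≥0∞, ∫⁻ x, g x ∂μ = ∑' k, ∫⁻ x in Q k, g x ∂μ := by
    intro g
    rw [← lintegral_iUnion hQm hQd, hQu, Measure.restrict_univ]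
  refine ⟨fun x => T (K x) x, ?_, ?_, ?_⟩
  · exact Measurable.find hTm hmeas hex
  · intro φ hφ
    rw [hsum, hsum, hsum, ← ENNReal.tsum_add, ← ENNReal.tsum_mul_left]
    refine tsum_congr fun k => ?_
    rw [← hTi k φ hφ]
    refine setLIntegral_congr_fun (hQm k) fun x hx => ?_
    have : K x = k := hx
    simp only [this]
  · have hae : ∀ k, ∀ᵐ x ∂(μ.restrict (Q k)), (T k x).1 ∈ Q k := by
      intro k
      have h1 := hTi k (fun y => (Prod.fst ⁻¹' (Q k)ᶜ).indicator (fun _ => 1) y) (by
        exact (measurable_const.indicator (measurable_fst (hQm k).compl)))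
      have h2 : ∀ b : Bool, ∫⁻ x in Q k, (Prod.fst ⁻¹' (Q k)ᶜ).indicator (fun _ => (1 : ℝ≥0∞)) (x, b) ∂μ = 0 := by
        intro b
        rw [setLIntegral_congr_fun (g := fun _ => 0) (hQm k)]
        · simp
        · intro x hx
          simp [hx]
      rw [h2, h2, add_zero, mul_zero] at h1
      rw [lintegral_eq_zero_iff] at h1
      · filter_upwards [h1] with x hx
        by_contra hcon
        simp [hcon] at hx
      · exact (measurable_const.indicator (measurable_fst (hQm k).compl)).comp (hTm k)
    have h3 : ∀ᵐ x ∂μ, ∀ k, x ∈ Q k → (T k x).1 ∈ Q k := by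
      rw [ae_all_iff]
      intro k
      exact (ae_restrict_iff' (hQm k)).1 (hae k)
    filter_upwards [h3] with x hx
    have h4 : (T (K x) x).1 ∈ Q (K x) := hx (K x) rfl
    have h5 : ∀ y, K y = K x → dist y (p (K x)) < ε / 2 := by
      intro y hy
      have := Nat.find_spec (hex y)
      have h6 : Nat.find (hex y) = K x := hy
      rwa [h6] at this
    have h7 := h5 _ h4
    have h8 := h5 x rfl
    have := dist_triangle_right (T (K x) x).1 x (p (K x))
    linarith

end doubling2


end Crest.Agent.OT3
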