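import Mathlib
import Crest.Prelude.Def_MultiMarginal
import Crest.Agent.OT3.Doubling
set_option autoImplicit false
set_option linter.unusedSectionVars false
open MeasureTheory ProbabilityTheory Filter Set
open scoped Topology ENNReal ContDiff
open Crest.AnalysisR.OT

namespace Crest.Agent.OT3

section abstractOT
variable {E : Type*} [MetricSpace E] [TopologicalSpace.SeparableSpace E] [Nonempty E]
  [MeasurableSpace E] [BorelSpace E] [StandardBorelSpace E]

/-- the data of a two-branch three-marginal problem -/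
structure TwoBranch (E : Type*) [MetricSpace E] [MeasurableSpace E] where
  μA : Measure E
  μ : Measure E
  A : Set E
  BG : Bool → Set E
  BH : Bool → Set E
  g : Bool → E → E
  h : Bool → E → E
  kg : Bool → E → E
  kh : Bool → E → E
  c : E × E × E → ℝ≥0∞
  V : E → ℝ≥0∞
  K : ℝ≥0∞
  fin : IsFiniteMeasure μA
  prob : IsProbabilityMeasure μ
  hna : ∀ x, μA {x} = 0
  hA : MeasurableSet A
  hBG : ∀ i, MeasurableSet (BG i)
  hBH : ∀ i, MeasurableSet (BH i)
  hμA : ∀ᵐ x ∂μA, x ∈ A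
  hpos : μA A ≠ 0
  hg : ∀ i, Measurable (g i)
  hh : ∀ i, Measurable (h i)
  hkg : ∀ i, Measurable (kg i)
  hkh : ∀ i, Measurable (kh i)
  dAG : ∀ i, ∀ x ∈ A, x ∉ BG i
  dAH : ∀ i, ∀ x ∈ A, x ∉ BH i
  dGH : ∀ i j, ∀ x ∈ BG i, x ∉ BH j
  dGG : ∀ x ∈ BG true, x ∉ BG false
  dHH : ∀ x ∈ BH true, x ∉ BH false
  mg : ∀ i, ∀ x ∈ A, g i x ∈ BG i
  mh : ∀ i, ∀ x ∈ A, h i x ∈ BH i
  lg : ∀ i, ∀ x ∈ A, kg i (g i x) = x
  lh : ∀ i, ∀ x ∈ A, kh i (h i x) = x
  LI : ∀ φ : E → ℝ≥0∞, Measurable φ → ∫⁻ p, φ p ∂μ = ∫⁻ x, φ x ∂μA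
    + (1 / 2) * ∑ i : Bool, (∫⁻ x, φ (g i x) ∂μA + ∫⁻ x, φ (h i x) ∂μA)
  hc : Measurable c
  hV : Measurable V
  hK : K ≠ ⊤
  hVfin : ∫⁻ p, V p ∂μ ≠ ⊤
  S : Set E
  hS : S = {p | p ∈ A ∨ ∃ i, p ∈ BG i ∨ p ∈ BH i}
  H1 : ∀ p q r, p ∈ S → q ∈ S → r ∈ S → V p + V q + V r ≤ c (p, q, r) + K
  H2 : ∀ p q r, p ∈ S → q ∈ S → r ∈ S → c (p, q, r) + K ≤ V p + V q + V r →
    ∃ i, ∃ x ∈ A, (p = x ∧ q = g i x ∧ r = h i x) ∨ (p = x ∧ q = h i x ∧ r = g i x) ∨
      (p = g i x ∧ q = x ∧ r = h i x) ∨ (p = g i x ∧ q = h i x ∧ r = x) ∨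
      (p = h i x ∧ q = x ∧ r = g i x) ∨ (p = h i x ∧ q = g i x ∧ r = x)
  H3 : ∀ i, ∀ x ∈ A, c (x, g i x, h i x) + K = V x + V (g i x) + V (h i x) ∧
    c (g i x, h i x, x) + K = V x + V (g i x) + V (h i x) ∧
    c (h i x, x, g i x) + K = V x + V (g i x) + V (h i x)
  H4 : ∀ ε : ℝ≥0∞, 0 < ε → ∃ δ : ℝ, 0 < δ ∧ ∀ i, ∀ x ∈ A, ∀ x' ∈ A, dist x' x ≤ δ →
    c (x, g i x', h i x') ≤ c (x', g i x', h i x') + ε

namespace TwoBranch

variable (D : TwoBranch E)

lemma ae_transfer {Q : E → Prop} (hQ : ∀ᵐ p ∂D.μ, Q p) :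
    (∀ᵐ x ∂D.μA, Q x) ∧ ∀ i, (∀ᵐ x ∂D.μA, Q (D.g i x)) ∧ (∀ᵐ x ∂D.μA, Q (D.h i x)) := by
  obtain ⟨N, hN1, hN2, hN3⟩ := exists_measurable_superset_of_null hQ
  have hφ : Measurable (N.indicator (fun _ => (1 : ℝ≥0∞))) := measurable_const.indicator hN2
  have h1 := D.LI _ hφ
  have h0 : ∫⁻ p, N.indicator (fun _ => (1 : ℝ≥0∞)) p ∂D.μ = 0 := by
    rw [lintegral_indicator hN2]; simp [hN3]
  rw [h0] at h1
  have h2 := h1.symm
  rw [add_eq_zero, mul_eq_zero] at h2
  obtain ⟨h3, h4⟩ := h2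
  have h5 := h4.resolve_left (by simp)
  rw [Finset.sum_eq_zero_iff] at h5
  have key : ∀ f : E → E, Measurable f → ∫⁻ x, N.indicator (fun _ => (1 : ℝ≥0∞)) (f x) ∂D.μA = 0 →
      ∀ᵐ x ∂D.μA, Q (f x) := by
    intro f hf hint
    have hint' := (lintegral_eq_zero_iff (hφ.comp hf)).1 hint
    filter_upwards [hint'] with x hx
    by_contra hcon
    have : f x ∈ N := hN1 hcon
    simp [this] at hx
  refine ⟨key id measurable_id h3, fun i => ?_⟩
  have h6 := add_eq_zero.1 (h5 i (Finset.mem_univ i))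
  exact ⟨key _ (D.hg i) h6.1, key _ (D.hh i) h6.2⟩

lemma ae_S : ∀ᵐ p ∂D.μ, p ∈ D.S := by
  have hSm : MeasurableSet D.S := by
    rw [D.hS]
    have : {p | p ∈ D.A ∨ ∃ i, p ∈ D.BG i ∨ p ∈ D.BH i} = D.A ∪ ⋃ i, (D.BG i ∪ D.BH i) := by
      ext p; simp
    rw [this]
    exact D.hA.union (MeasurableSet.iUnion fun i => (D.hBG i).union (D.hBH i))
  have hφ : Measurable (D.Sᶜ.indicator (fun _ => (1 : ℝ≥0∞))) := measurable_const.indicator hSm.compl
  have h1 := D.LI _ hφ
  have h2 : ∀ f : E → E, (∀ x ∈ D.A, f x ∈ D.S) →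
      ∫⁻ x, D.Sᶜ.indicator (fun _ => (1 : ℝ≥0∞)) (f x) ∂D.μA = 0 := by
    intro f hf
    rw [lintegral_congr_ae (g := fun _ => 0)]
    · simp
    · filter_upwards [D.hμA] with x hx
      simp [hf x hx]
  have h3 : ∫⁻ p, D.Sᶜ.indicator (fun _ => (1 : ℝ≥0∞)) p ∂D.μ = 0 := by
    have h2' := h2 id (fun x hx => by rw [D.hS]; exact Or.inl hx)
    simp only [id] at h2'
    rw [h1, h2']
    simp only [zero_add]
    rw [Finset.sum_eq_zero]
    · simp
    · intro i _
      rw [h2 _ (fun x hx => by rw [D.hS]; exact Or.inr ⟨i, Or.inl (D.mg i x hx)⟩),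
        h2 _ (fun x hx => by rw [D.hS]; exact Or.inr ⟨i, Or.inr (D.mh i x hx)⟩)]
      simp
  rw [lintegral_indicator hSm.compl] at h3
  simp only [lintegral_const, one_mul, Measure.restrict_apply MeasurableSet.univ, univ_inter] at h3
  exact h3

/-- the optimal plan -/
noncomputable def plan : Measure (E × E × E) :=
  (1 / 2 : ℝ≥0∞) • ∑ i : Bool, (D.μA.map (fun x => (x, D.g i x, D.h i x))
    + D.μA.map (fun x => (D.g i x, D.h i x, x)) + D.μA.map (fun x => (D.h i x, x, D.g i x)))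

lemma lintegral_plan {F : E × E × E → ℝ≥0∞} (hF : Measurable F) :
    ∫⁻ p, F p ∂D.plan = (1 / 2) * ∑ i : Bool, (∫⁻ x, F (x, D.g i x, D.h i x) ∂D.μA
      + ∫⁻ x, F (D.g i x, D.h i x, x) ∂D.μA + ∫⁻ x, F (D.h i x, x, D.g i x) ∂D.μA) := by
  have hg := D.hg
  have hh := D.hh
  unfold plan
  rw [lintegral_smul_measure, smul_eq_mul, lintegral_finsetSum_measure]
  congr 1
  refine Finset.sum_congr rfl fun i _ => ?_
  rw [lintegral_add_measure, lintegral_add_measure, lintegral_map hF (by fun_prop),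
    lintegral_map hF (by fun_prop), lintegral_map hF (by fun_prop)]

lemma half_two (J : ℝ≥0∞) : (1 / 2 : ℝ≥0∞) * (J + J) = J := by
  rw [← two_mul, ← mul_assoc, one_div, ENNReal.inv_mul_cancel (by simp) (by simp), one_mul]

lemma plan_coupling : IsCoupling₃ D.μ D.plan := by
  have hg := D.hg
  have hh := D.hh
  refine ⟨?_, ?_, ?_⟩
  · refine Measure.ext_of_lintegral _ fun φ hφ => ?_
    rw [lintegral_map hφ (by fun_prop), D.LI φ hφ, D.lintegral_plan (by fun_prop)]
    simp only [Fintype.sum_bool]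
    set J := ∫⁻ x, φ x ∂D.μA
    conv_lhs => rw [show J + ∫⁻ (x : E), φ (D.g true x) ∂D.μA + ∫⁻ (x : E), φ (D.h true x) ∂D.μA +
      (J + ∫⁻ (x : E), φ (D.g false x) ∂D.μA + ∫⁻ (x : E), φ (D.h false x) ∂D.μA)
      = (J + J) + (∫⁻ (x : E), φ (D.g true x) ∂D.μA + ∫⁻ (x : E), φ (D.h true x) ∂D.μA +
      (∫⁻ (x : E), φ (D.g false x) ∂D.μA + ∫⁻ (x : E), φ (D.h false x) ∂D.μA)) by ring]
    rw [mul_add, half_two]
  · refine Measure.ext_of_lintegral _ fun φ hφ => ?_
    rw [lintegral_map hφ (by fun_prop), D.LI φ hφ, D.lintegral_plan (by fun_prop)]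
    simp only [Fintype.sum_bool]
    set J := ∫⁻ x, φ x ∂D.μA
    conv_lhs => rw [show ∫⁻ (x : E), φ (D.g true x) ∂D.μA + ∫⁻ (x : E), φ (D.h true x) ∂D.μA + J +
      (∫⁻ (x : E), φ (D.g false x) ∂D.μA + ∫⁻ (x : E), φ (D.h false x) ∂D.μA + J)
      = (J + J) + (∫⁻ (x : E), φ (D.g true x) ∂D.μA + ∫⁻ (x : E), φ (D.h true x) ∂D.μA +
      (∫⁻ (x : E), φ (D.g false x) ∂D.μA + ∫⁻ (x : E), φ (D.h false x) ∂D.μA)) by ring]
    rw [mul_add, half_two]
  · refine Measure.ext_of_lintegral _ fun φ hφ => ?_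
    rw [lintegral_map hφ (by fun_prop), D.LI φ hφ, D.lintegral_plan (by fun_prop)]
    simp only [Fintype.sum_bool]
    set J := ∫⁻ x, φ x ∂D.μA
    conv_lhs => rw [show ∫⁻ (x : E), φ (D.h true x) ∂D.μA + J + ∫⁻ (x : E), φ (D.g true x) ∂D.μA +
      (∫⁻ (x : E), φ (D.h false x) ∂D.μA + J + ∫⁻ (x : E), φ (D.g false x) ∂D.μA)
      = (J + J) + (∫⁻ (x : E), φ (D.g true x) ∂D.μA + ∫⁻ (x : E), φ (D.h true x) ∂D.μA +
      (∫⁻ (x : E), φ (D.g false x) ∂D.μA + ∫⁻ (x : E), φ (D.h false x) ∂D.μA)) by ring]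
    rw [mul_add, half_two]

lemma coupling_lintegral {π : Measure (E × E × E)} (hπ : IsCoupling₃ D.μ π) {φ : E → ℝ≥0∞}
    (hφ : Measurable φ) :
    ∫⁻ p, φ p.1 ∂π = ∫⁻ x, φ x ∂D.μ ∧ ∫⁻ p, φ p.2.1 ∂π = ∫⁻ x, φ x ∂D.μ ∧
      ∫⁻ p, φ p.2.2 ∂π = ∫⁻ x, φ x ∂D.μ := by
  obtain ⟨h1, h2, h3⟩ := hπ
  refine ⟨?_, ?_, ?_⟩
  · rw [← h1, lintegral_map hφ (by fun_prop)]
  · rw [← h2, lintegral_map hφ (by fun_prop)]
  · rw [← h3, lintegral_map hφ (by fun_prop)]

lemma coupling_ae {π : Measure (E × E × E)} (hπ : IsCoupling₃ D.μ π) :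
    ∀ᵐ p ∂π, p.1 ∈ D.S ∧ p.2.1 ∈ D.S ∧ p.2.2 ∈ D.S := by
  obtain ⟨h1, h2, h3⟩ := hπ
  have h0 := D.ae_S
  have e1 : ∀ᵐ p ∂π, p.1 ∈ D.S := by
    rw [← h1] at h0
    exact ae_of_ae_map (by fun_prop) h0
  have h0 := D.ae_S
  have e2 : ∀ᵐ p ∂π, p.2.1 ∈ D.S := by
    rw [← h2] at h0
    exact ae_of_ae_map (f := fun p : E × E × E => p.2.1) (by fun_prop) h0
  have h0 := D.ae_S
  have e3 : ∀ᵐ p ∂π, p.2.2 ∈ D.S := by
    rw [← h3] at h0
    exact ae_of_ae_map (f := fun p : E × E × E => p.2.2) (by fun_prop) h0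
  filter_upwards [e1, e2, e3] with p a b c
  exact ⟨a, b, c⟩

lemma coupling_univ {π : Measure (E × E × E)} (hπ : IsCoupling₃ D.μ π) : π univ = 1 := by
  have h1 := hπ.1
  have h2 := D.prob
  have : π.map (fun p => p.1) univ = 1 := by rw [h1]; exact measure_univ
  rwa [Measure.map_apply (by fun_prop) MeasurableSet.univ] at this

lemma coupling_lower {π : Measure (E × E × E)} (hπ : IsCoupling₃ D.μ π) :
    3 * ∫⁻ x, D.V x ∂D.μ ≤ ∫⁻ p, D.c p ∂π + D.K := by
  have hV := D.hV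
  obtain ⟨h1, h2, h3⟩ := D.coupling_lintegral hπ D.hV
  have hu := D.coupling_univ hπ
  calc 3 * ∫⁻ x, D.V x ∂D.μ = ∫⁻ p, (D.V p.1 + D.V p.2.1 + D.V p.2.2) ∂π := by
        rw [lintegral_add_left (by fun_prop), lintegral_add_left (by fun_prop), h1, h2, h3]
        ring
    _ ≤ ∫⁻ p, (D.c p + D.K) ∂π := by
        apply lintegral_mono_ae
        filter_upwards [D.coupling_ae hπ] with p hp
        exact D.H1 _ _ _ hp.1 hp.2.1 hp.2.2
    _ = ∫⁻ p, D.c p ∂π + D.K := by
        rw [lintegral_add_left D.hc, lintegral_const, hu, mul_one]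

lemma plan_cost : ∫⁻ p, D.c p ∂D.plan + D.K = 3 * ∫⁻ x, D.V x ∂D.μ := by
  have hc := D.hc
  have hg := D.hg
  have hh := D.hh
  have hV := D.hV
  have hu := D.coupling_univ D.plan_coupling
  have h1 : ∫⁻ p, D.c p ∂D.plan + D.K = ∫⁻ p, (D.c p + D.K) ∂D.plan := by
    rw [lintegral_add_left D.hc, lintegral_const, hu, mul_one]
  rw [h1, D.lintegral_plan (by fun_prop), D.LI _ D.hV]
  have h2 : ∀ i, ∫⁻ x, (D.c (x, D.g i x, D.h i x) + D.K) ∂D.μA
      + ∫⁻ x, (D.c (D.g i x, D.h i x, x) + D.K) ∂D.μA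
      + ∫⁻ x, (D.c (D.h i x, x, D.g i x) + D.K) ∂D.μA
      = 3 * (∫⁻ x, D.V x ∂D.μA + (∫⁻ x, D.V (D.g i x) ∂D.μA + ∫⁻ x, D.V (D.h i x) ∂D.μA)) := by
    intro i
    have e : ∫⁻ x, (D.V x + D.V (D.g i x) + D.V (D.h i x)) ∂D.μA
        = ∫⁻ x, D.V x ∂D.μA + (∫⁻ x, D.V (D.g i x) ∂D.μA + ∫⁻ x, D.V (D.h i x) ∂D.μA) := by
      rw [lintegral_add_left (by fun_prop), lintegral_add_left (by fun_prop)]
      ring
    have k1 : ∫⁻ x, (D.c (x, D.g i x, D.h i x) + D.K) ∂D.μA
        = ∫⁻ x, (D.V x + D.V (D.g i x) + D.V (D.h i x)) ∂D.μA := by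
      apply lintegral_congr_ae
      filter_upwards [D.hμA] with x hx
      exact (D.H3 i x hx).1
    have k2 : ∫⁻ x, (D.c (D.g i x, D.h i x, x) + D.K) ∂D.μA
        = ∫⁻ x, (D.V x + D.V (D.g i x) + D.V (D.h i x)) ∂D.μA := by
      apply lintegral_congr_ae
      filter_upwards [D.hμA] with x hx
      exact (D.H3 i x hx).2.1
    have k3 : ∫⁻ x, (D.c (D.h i x, x, D.g i x) + D.K) ∂D.μA
        = ∫⁻ x, (D.V x + D.V (D.g i x) + D.V (D.h i x)) ∂D.μA := by
      apply lintegral_congr_ae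
      filter_upwards [D.hμA] with x hx
      exact (D.H3 i x hx).2.2
    rw [k1, k2, k3, e]
    ring
  simp_rw [h2]
  rw [← Finset.mul_sum, Finset.sum_add_distrib]
  simp only [Fintype.sum_bool]
  set J := ∫⁻ x, D.V x ∂D.μA
  calc 1 / 2 * (3 * (J + J + (∫⁻ (x : E), D.V (D.g true x) ∂D.μA + ∫⁻ (x : E), D.V (D.h true x) ∂D.μA +
      (∫⁻ (x : E), D.V (D.g false x) ∂D.μA + ∫⁻ (x : E), D.V (D.h false x) ∂D.μA))))
      = 3 * ((1 / 2) * (J + J) + 1 / 2 * (∫⁻ (x : E), D.V (D.g true x) ∂D.μA + ∫⁻ (x : E), D.V (D.h true x) ∂D.μA +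
      (∫⁻ (x : E), D.V (D.g false x) ∂D.μA + ∫⁻ (x : E), D.V (D.h false x) ∂D.μA))) := by ring
    _ = _ := by rw [half_two]

lemma plan_cost_lt_top : ∫⁻ p, D.c p ∂D.plan < ⊤ := by
  have h1 := D.plan_cost
  have h2 : (3 : ℝ≥0∞) * ∫⁻ x, D.V x ∂D.μ < ⊤ :=
    ENNReal.mul_lt_top (by simp) (lt_top_iff_ne_top.2 D.hVfin)
  refine lt_of_le_of_lt ?_ h2
  rw [← h1]
  exact le_self_add

lemma plan_optimal {π : Measure (E × E × E)} (hπ : IsCoupling₃ D.μ π) :
    ∫⁻ p, D.c p ∂D.plan ≤ ∫⁻ p, D.c p ∂π := by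
  have h1 := D.coupling_lower hπ
  rw [← D.plan_cost] at h1
  exact (ENNReal.add_le_add_iff_right D.hK).1 h1

lemma map_coupling {T₂ T₃ : E → E} (h₂ : Measurable T₂) (h₃ : Measurable T₃)
    (hm₂ : D.μ.map T₂ = D.μ) (hm₃ : D.μ.map T₃ = D.μ) :
    IsCoupling₃ D.μ (D.μ.map (fun x => (x, T₂ x, T₃ x))) := by
  have hm : Measurable (fun x => (x, T₂ x, T₃ x)) := by fun_prop
  refine ⟨?_, ?_, ?_⟩
  · rw [Measure.map_map (by fun_prop) hm]
    exact Measure.map_id
  · rw [Measure.map_map (by fun_prop) hm]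
    exact hm₂
  · rw [Measure.map_map (by fun_prop) hm]
    exact hm₃

theorem not_attained {T₂ T₃ : E → E} (h₂ : Measurable T₂) (h₃ : Measurable T₃)
    (hm₂ : D.μ.map T₂ = D.μ) (hm₃ : D.μ.map T₃ = D.μ) :
    ∫⁻ p, D.c p ∂D.plan < ∫⁻ x, D.c (x, T₂ x, T₃ x) ∂D.μ := by
  have hc := D.hc
  have hV := D.hV
  have hg := D.hg
  have hh := D.hh
  have hfin := D.fin
  have hprob := D.prob
  by_contra hcon
  push Not at hcon
  have hS := D.ae_S
  have hS2 : ∀ᵐ x ∂D.μ, T₂ x ∈ D.S := by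
    have := D.ae_S
    rw [← hm₂] at this
    exact ae_of_ae_map (by fun_prop) this
  have hS3 : ∀ᵐ x ∂D.μ, T₃ x ∈ D.S := by
    have := D.ae_S
    rw [← hm₃] at this
    exact ae_of_ae_map (by fun_prop) this
  have hV2 : ∫⁻ x, D.V (T₂ x) ∂D.μ = ∫⁻ x, D.V x ∂D.μ := by
    conv_rhs => rw [← hm₂]
    rw [lintegral_map D.hV h₂]
  have hV3 : ∫⁻ x, D.V (T₃ x) ∂D.μ = ∫⁻ x, D.V x ∂D.μ := by
    conv_rhs => rw [← hm₃]
    rw [lintegral_map D.hV h₃]
  have hsumV : ∫⁻ x, (D.V x + D.V (T₂ x) + D.V (T₃ x)) ∂D.μ = 3 * ∫⁻ x, D.V x ∂D.μ := by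
    rw [lintegral_add_left (by fun_prop), lintegral_add_left (by fun_prop), hV2, hV3]
    ring
  have hle : (fun x => D.V x + D.V (T₂ x) + D.V (T₃ x)) ≤ᵐ[D.μ]
      fun x => D.c (x, T₂ x, T₃ x) + D.K := by
    filter_upwards [hS, hS2, hS3] with x a b c
    exact D.H1 _ _ _ a b c
  have heq := ae_eq_of_ae_le_of_lintegral_le hle (by
    rw [hsumV]
    exact ENNReal.mul_ne_top (by simp) D.hVfin) (by fun_prop) (by
    rw [hsumV, ← D.plan_cost, lintegral_add_right _ measurable_const, lintegral_const,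
      measure_univ, mul_one]
    gcongr)
  have htrip : ∀ᵐ p ∂D.μ, ∃ i, ∃ x ∈ D.A, (p = x ∧ T₂ p = D.g i x ∧ T₃ p = D.h i x) ∨
      (p = x ∧ T₂ p = D.h i x ∧ T₃ p = D.g i x) ∨
      (p = D.g i x ∧ T₂ p = x ∧ T₃ p = D.h i x) ∨ (p = D.g i x ∧ T₂ p = D.h i x ∧ T₃ p = x) ∨
      (p = D.h i x ∧ T₂ p = x ∧ T₃ p = D.g i x) ∨ (p = D.h i x ∧ T₂ p = D.g i x ∧ T₃ p = x) := by
    filter_upwards [hS, hS2, hS3, heq] with x a b c d
    exact D.H2 _ _ _ a b c (le_of_eq d.symm)
  obtain ⟨tA, tGH⟩ := D.ae_transfer htrip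
  -- the three local pictures
  set A1 : Set E := {x | x ∈ D.A ∧ (T₂ x ∈ D.BG false ∨ T₂ x ∈ D.BH false)} with hA1
  have hA1m : MeasurableSet A1 := D.hA.inter ((h₂ (D.hBG false)).union (h₂ (D.hBH false)))
  have main : ∀ F : Set E, MeasurableSet F → F ⊆ D.A →
      D.μA (F ∩ A1) + (1 / 2) * D.μA F = D.μA F := by
    intro F hF hFA
    set W : Set E := D.BG false ∩ (D.kg false) ⁻¹' F with hW
    have hWm : MeasurableSet W := (D.hBG false).inter ((D.hkg false) hF)
    set ι : E → ℝ≥0∞ := W.indicator (fun _ => 1) with hι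
    have hιm : Measurable ι := measurable_const.indicator hWm
    have iin : ∀ {q}, q ∈ W → ι q = 1 := fun hq => by simp [hι, hq]
    have iout : ∀ {q}, q ∉ W → ι q = 0 := fun hq => by simp [hι, hq]
    have wA : ∀ x ∈ D.A, x ∉ W := fun x hx hc => D.dAG false x hx hc.1
    have wH : ∀ i, ∀ x ∈ D.A, D.h i x ∉ W := fun i x hx hc =>
      D.dGH false i _ hc.1 (D.mh i x hx)
    have wGt : ∀ x ∈ D.A, D.g true x ∉ W := fun x hx hc =>
      D.dGG _ (D.mg true x hx) hc.1
    have wGf : ∀ x ∈ D.A, (D.g false x ∈ W ↔ x ∈ F) := fun x hx => by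
      constructor
      · intro hc
        have := hc.2
        rw [mem_preimage, D.lg false x hx] at this
        exact this
      · intro hc
        exact ⟨D.mg false x hx, by rw [mem_preimage, D.lg false x hx]; exact hc⟩
    -- first computation
    have c1 : ∫⁻ x, ι x ∂D.μ = (1 / 2) * D.μA F := by
      rw [D.LI ι hιm]
      simp only [Fintype.sum_bool]
      have z1 : ∫⁻ x, ι x ∂D.μA = 0 := by
        rw [lintegral_congr_ae (g := fun _ => 0)]
        · simp
        · filter_upwards [D.hμA] with x hx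
          exact iout (wA x hx)
      have z2 : ∀ i, ∫⁻ x, ι (D.h i x) ∂D.μA = 0 := by
        intro i
        rw [lintegral_congr_ae (g := fun _ => 0)]
        · simp
        · filter_upwards [D.hμA] with x hx
          exact iout (wH i x hx)
      have z3 : ∫⁻ x, ι (D.g true x) ∂D.μA = 0 := by
        rw [lintegral_congr_ae (g := fun _ => 0)]
        · simp
        · filter_upwards [D.hμA] with x hx
          exact iout (wGt x hx)
      have z4 : ∫⁻ x, ι (D.g false x) ∂D.μA = D.μA F := by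
        rw [lintegral_congr_ae (g := F.indicator (fun _ => 1))]
        · rw [lintegral_indicator hF]; simp
        · filter_upwards [D.hμA] with x hx
          by_cases hxF : x ∈ F
          · rw [iin ((wGf x hx).2 hxF)]; simp [hxF]
          · rw [iout (fun hc => hxF ((wGf x hx).1 hc))]; simp [hxF]
      rw [z1, z2, z2, z3, z4]
      simp
    -- second computation
    have c2 : ∫⁻ x, (ι (T₂ x) + ι (T₃ x)) ∂D.μ = D.μA F := by
      rw [lintegral_add_left (by fun_prop)]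
      have e2 : ∫⁻ x, ι (T₂ x) ∂D.μ = ∫⁻ x, ι x ∂D.μ := by
        conv_rhs => rw [← hm₂]
        rw [lintegral_map hιm h₂]
      have e3 : ∫⁻ x, ι (T₃ x) ∂D.μ = ∫⁻ x, ι x ∂D.μ := by
        conv_rhs => rw [← hm₃]
        rw [lintegral_map hιm h₃]
      rw [e2, e3, c1, ← two_mul, ← mul_assoc, one_div, ENNReal.mul_inv_cancel (by simp) (by simp),
        one_mul]
    have c3 : ∫⁻ x, (ι (T₂ x) + ι (T₃ x)) ∂D.μ = D.μA (F ∩ A1) + (1 / 2) * D.μA F := by
      rw [D.LI (fun x => ι (T₂ x) + ι (T₃ x)) (by fun_prop)]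
      simp only [Fintype.sum_bool]
      have y1 : ∫⁻ x, (ι (T₂ x) + ι (T₃ x)) ∂D.μA = D.μA (F ∩ A1) := by
        rw [lintegral_congr_ae (g := (F ∩ A1).indicator (fun _ => 1))]
        · rw [lintegral_indicator (hF.inter hA1m)]; simp
        · filter_upwards [D.hμA, tA] with p hp ht
          obtain ⟨i, x, hx, ht⟩ := ht
          have n1 : p ≠ D.g i x := fun h => D.dAG i p hp (h ▸ D.mg i x hx)
          have n2 : p ≠ D.h i x := fun h => D.dAH i p hp (h ▸ D.mh i x hx)
          have hcase : p = x ∧ ((T₂ p = D.g i x ∧ T₃ p = D.h i x) ∨ (T₂ p = D.h i x ∧ T₃ p = D.g i x)) := by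
            rcases ht with h | h | h | h | h | h
            · exact ⟨h.1, Or.inl h.2⟩
            · exact ⟨h.1, Or.inr h.2⟩
            · exact absurd h.1 n1
            · exact absurd h.1 n1
            · exact absurd h.1 n2
            · exact absurd h.1 n2
          obtain ⟨rfl, hcase⟩ := hcase
          cases i with
          | true =>
            have hnot : p ∉ A1 := by
              rintro ⟨-, hh⟩
              rcases hcase with ⟨a, b⟩ | ⟨a, b⟩
              · rw [a] at hh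
                rcases hh with hh | hh
                · exact D.dGG _ (D.mg true p hx) hh
                · exact D.dGH true false _ (D.mg true p hx) hh
              · rw [a] at hh
                rcases hh with hh | hh
                · exact D.dGH false true _ hh (D.mh true p hx)
                · exact D.dHH _ (D.mh true p hx) hh
            have hind : (F ∩ A1).indicator (fun _ => (1 : ℝ≥0∞)) p = 0 := by
              simp [hnot]
            rw [hind]
            rcases hcase with ⟨a, b⟩ | ⟨a, b⟩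
            · rw [a, b, iout (wGt p hx), iout (wH true p hx), add_zero]
            · rw [a, b, iout (wGt p hx), iout (wH true p hx), add_zero]
          | false =>
            have hin : p ∈ A1 := by
              refine ⟨hx, ?_⟩
              rcases hcase with ⟨a, b⟩ | ⟨a, b⟩
              · rw [a]; exact Or.inl (D.mg false p hx)
              · rw [a]; exact Or.inr (D.mh false p hx)
            by_cases hpF : p ∈ F
            · have hind : (F ∩ A1).indicator (fun _ => (1 : ℝ≥0∞)) p = 1 := by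
                simp [hpF, hin]
              rw [hind]
              rcases hcase with ⟨a, b⟩ | ⟨a, b⟩
              · rw [a, b, iin ((wGf p hx).2 hpF), iout (wH false p hx), add_zero]
              · rw [a, b, iin ((wGf p hx).2 hpF), iout (wH false p hx), zero_add]
            · have hind : (F ∩ A1).indicator (fun _ => (1 : ℝ≥0∞)) p = 0 := by
                simp [hpF]
              rw [hind]
              have hnW : D.g false p ∉ W := fun hc => hpF ((wGf p hx).1 hc)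
              rcases hcase with ⟨a, b⟩ | ⟨a, b⟩
              · rw [a, b, iout hnW, iout (wH false p hx), add_zero]
              · rw [a, b, iout hnW, iout (wH false p hx), add_zero]
      have y2 : ∀ j, ∫⁻ x, (ι (T₂ (D.g j x)) + ι (T₃ (D.g j x))) ∂D.μA = 0 := by
        intro j
        rw [lintegral_congr_ae (g := fun _ => 0)]
        · simp
        · filter_upwards [D.hμA, (tGH j).1] with p hp ht
          obtain ⟨i, x, hx, ht⟩ := ht
          have hgp := D.mg j p hp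
          have n1 : D.g j p ≠ x := fun h => D.dAG j x hx (h ▸ hgp)
          have n2 : D.g j p ≠ D.h i x := fun h => D.dGH j i _ hgp (h ▸ D.mh i x hx)
          rcases ht with h | h | h | h | h | h
          · exact absurd h.1 n1
          · exact absurd h.1 n1
          · rw [h.2.1, h.2.2, iout (wA x hx), iout (wH i x hx), add_zero]
          · rw [h.2.1, h.2.2, iout (wA x hx), iout (wH i x hx), add_zero]
          · exact absurd h.1 n2
          · exact absurd h.1 n2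
      have y3 : ∫⁻ x, (ι (T₂ (D.h true x)) + ι (T₃ (D.h true x))) ∂D.μA = 0 := by
        rw [lintegral_congr_ae (g := fun _ => 0)]
        · simp
        · filter_upwards [D.hμA, (tGH true).2] with p hp ht
          obtain ⟨i, x, hx, ht⟩ := ht
          have hhp := D.mh true p hp
          have n1 : D.h true p ≠ x := fun h => D.dAH true x hx (h ▸ hhp)
          have n2 : D.h true p ≠ D.g i x := fun h => D.dGH i true _ (D.mg i x hx) (h ▸ hhp)
          have hcase : D.h true p = D.h i x ∧ ((T₂ (D.h true p) = x ∧ T₃ (D.h true p) = D.g i x)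
              ∨ (T₂ (D.h true p) = D.g i x ∧ T₃ (D.h true p) = x)) := by
            rcases ht with h | h | h | h | h | h
            · exact absurd h.1 n1
            · exact absurd h.1 n1
            · exact absurd h.1 n2
            · exact absurd h.1 n2
            · exact ⟨h.1, Or.inl h.2⟩
            · exact ⟨h.1, Or.inr h.2⟩
          have hit : i = true := by
            by_contra hne
            have hif : i = false := by simpa using hne
            rw [hif] at hcase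
            exact D.dHH _ hhp (hcase.1 ▸ D.mh false x hx)
          rw [hit] at hcase
          rcases hcase.2 with ⟨a, b⟩ | ⟨a, b⟩
          · rw [a, b, iout (wA x hx), iout (wGt x hx), add_zero]
          · rw [a, b, iout (wA x hx), iout (wGt x hx), add_zero]
      have y4 : ∫⁻ x, (ι (T₂ (D.h false x)) + ι (T₃ (D.h false x))) ∂D.μA = D.μA F := by
        rw [lintegral_congr_ae (g := F.indicator (fun _ => 1))]
        · rw [lintegral_indicator hF]; simp
        · filter_upwards [D.hμA, (tGH false).2] with p hp ht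
          obtain ⟨i, x, hx, ht⟩ := ht
          have hhp := D.mh false p hp
          have n1 : D.h false p ≠ x := fun h => D.dAH false x hx (h ▸ hhp)
          have n2 : D.h false p ≠ D.g i x := fun h => D.dGH i false _ (D.mg i x hx) (h ▸ hhp)
          have hcase : D.h false p = D.h i x ∧ ((T₂ (D.h false p) = x ∧ T₃ (D.h false p) = D.g i x)
              ∨ (T₂ (D.h false p) = D.g i x ∧ T₃ (D.h false p) = x)) := by
            rcases ht with h | h | h | h | h | h
            · exact absurd h.1 n1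
            · exact absurd h.1 n1
            · exact absurd h.1 n2
            · exact absurd h.1 n2
            · exact ⟨h.1, Or.inl h.2⟩
            · exact ⟨h.1, Or.inr h.2⟩
          have hif : i = false := by
            by_contra hne
            have hit : i = true := by simpa using hne
            rw [hit] at hcase
            exact D.dHH _ (D.mh true x hx) (hcase.1 ▸ hhp)
          rw [hif] at hcase
          have hxp : x = p := by
            have h5 := D.lh false x hx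
            have h6 := D.lh false p hp
            rw [← h5, ← hcase.1, h6]
          rw [hxp] at hcase
          have hval : ι (T₂ (D.h false p)) + ι (T₃ (D.h false p)) = ι (D.g false p) := by
            rcases hcase.2 with ⟨a, b⟩ | ⟨a, b⟩
            · rw [a, b, iout (wA p hp), zero_add]
            · rw [a, b, iout (wA p hp), add_zero]
          rw [hval]
          by_cases hpF : p ∈ F
          · rw [iin ((wGf p hp).2 hpF)]; simp [hpF]
          · rw [iout (fun hc => hpF ((wGf p hp).1 hc))]; simp [hpF]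
      rw [y1, y2, y2, y3, y4]
      simp
    rw [← c3, c2]
  have m1 := main A1 hA1m (fun x hx => hx.1)
  have m2 := main D.A D.hA subset_rfl
  rw [inter_self] at m1
  have hfinA1 : D.μA A1 ≠ ⊤ := measure_ne_top _ _
  have z1 : D.μA A1 = 0 := by
    have h5 : (1 / 2 : ℝ≥0∞) * D.μA A1 = 0 := by
      have h6 : D.μA A1 + (1 / 2) * D.μA A1 = D.μA A1 + 0 := by rw [m1, add_zero]
      exact (ENNReal.add_right_inj hfinA1).1 h6
    rw [mul_eq_zero] at h5
    exact h5.resolve_left (by simp)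
  have hAA : D.A ∩ A1 = A1 := inter_eq_right.2 fun x hx => hx.1
  rw [hAA, z1, zero_add] at m2
  have hfinA : D.μA D.A ≠ ⊤ := measure_ne_top _ _
  have h7 : (1 / 2 : ℝ≥0∞) * D.μA D.A + (1 / 2) * D.μA D.A = (1 / 2) * D.μA D.A + 0 := by
    rw [add_zero, ← mul_add, half_two, m2]
  have h8 : (1 / 2 : ℝ≥0∞) * D.μA D.A = 0 :=
    (ENNReal.add_right_inj (ENNReal.mul_ne_top (by simp) hfinA)).1 h7
  rw [mul_eq_zero] at h8
  exact D.hpos (h8.resolve_left (by simp))

end TwoBranch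
end abstractOT
end Crest.Agent.OT3
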