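import Mathlib
import Crest.Prelude.Def_MultiMarginal
import Crest.Agent.OT3.Abstract
set_option autoImplicit false
set_option linter.unusedSectionVars false
open MeasureTheory ProbabilityTheory Filter Set
open scoped Topology ENNReal ContDiff
open Crest.AnalysisR.OT

namespace Crest.Agent.OT3

section approx
variable {E : Type*} [MetricSpace E] [TopologicalSpace.SeparableSpace E] [Nonempty E]
  [MeasurableSpace E] [BorelSpace E] [StandardBorelSpace E]

namespace TwoBranch

variable (D : TwoBranch E)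

lemma muA_univ_le : D.μA univ ≤ 1 := by
  have h1 := D.LI (fun _ => 1) measurable_const
  have := D.prob
  simp only [lintegral_const, one_mul, measure_univ] at h1
  rw [h1]
  exact le_self_add

theorem approx {ε : ℝ≥0∞} (hε : 0 < ε) :
    ∃ T₂ T₃ : E → E, Measurable T₂ ∧ Measurable T₃ ∧ D.μ.map T₂ = D.μ ∧ D.μ.map T₃ = D.μ ∧
      ∫⁻ x, D.c (x, T₂ x, T₃ x) ∂D.μ < ∫⁻ p, D.c p ∂D.plan + ε := by
  classical
  have hc := D.hc
  have hg := D.hg
  have hh := D.hh
  have hkg := D.hkg
  have hkh := D.hkh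
  have hfin := D.fin
  have hprob := D.prob
  obtain ⟨ε', hε'0, hε'⟩ : ∃ ε' : ℝ≥0∞, 0 < ε' ∧ ε' < ε := exists_between hε
  obtain ⟨δ, hδ, hcont⟩ := D.H4 ε' hε'0
  obtain ⟨S, hS, hSint, hSd⟩ := exists_doubling D.μA D.hna hδ
  have hS1 : Measurable (fun x => (S x).1) := measurable_fst.comp hS
  have hS2 : Measurable (fun x => (S x).2) := measurable_snd.comp hS
  -- S lands in A
  have hSA : ∀ᵐ x ∂D.μA, (S x).1 ∈ D.A := by
    have hφ : Measurable (fun y : E × Bool => D.Aᶜ.indicator (fun _ => (1 : ℝ≥0∞)) y.1) :=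
      (measurable_const.indicator D.hA.compl).comp measurable_fst
    have h1 := hSint _ hφ
    have h2 : ∫⁻ x, D.Aᶜ.indicator (fun _ => (1 : ℝ≥0∞)) x ∂D.μA = 0 := by
      rw [lintegral_congr_ae (g := fun _ => 0)]
      · simp
      · filter_upwards [D.hμA] with x hx
        simp [hx]
    simp only [h2, add_zero, mul_zero] at h1
    have h3 := (lintegral_eq_zero_iff (hφ.comp hS)).1 h1
    filter_upwards [h3] with x hx
    by_contra hcon
    simp [hcon] at hx
  -- the maps
  set gS : E → E := fun x => if (S x).2 = true then D.g true (S x).1 else D.g false (S x).1 with hgS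
  set hS' : E → E := fun x => if (S x).2 = true then D.h true (S x).1 else D.h false (S x).1 with hhS
  have hSt : MeasurableSet {x | (S x).2 = true} := hS2 (measurableSet_singleton true)
  have mgS : Measurable gS := Measurable.ite hSt ((hg true).comp hS1) ((hg false).comp hS1)
  have mhS : Measurable hS' := Measurable.ite hSt ((hh true).comp hS1) ((hh false).comp hS1)
  set T₂ : E → E := fun p => if p ∈ D.A then gS p else if p ∈ D.BG false then D.h false (D.kg false p)
    else if p ∈ D.BG true then D.h true (D.kg true p) else if p ∈ D.BH false then D.kh false p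
    else if p ∈ D.BH true then D.kh true p else p with hT₂
  set T₃ : E → E := fun p => if p ∈ D.A then hS' p else if p ∈ D.BG false then D.kg false p
    else if p ∈ D.BG true then D.kg true p else if p ∈ D.BH false then D.g false (D.kh false p)
    else if p ∈ D.BH true then D.g true (D.kh true p) else p with hT₃
  have mT₂ : Measurable T₂ := by
    refine Measurable.ite D.hA mgS (Measurable.ite (D.hBG false) (by fun_prop)
      (Measurable.ite (D.hBG true) (by fun_prop) (Measurable.ite (D.hBH false) (by fun_prop)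
      (Measurable.ite (D.hBH true) (by fun_prop) measurable_id))))
  have mT₃ : Measurable T₃ := by
    refine Measurable.ite D.hA mhS (Measurable.ite (D.hBG false) (by fun_prop)
      (Measurable.ite (D.hBG true) (by fun_prop) (Measurable.ite (D.hBH false) (by fun_prop)
      (Measurable.ite (D.hBH true) (by fun_prop) measurable_id))))
  -- evaluation
  have eA2 : ∀ x ∈ D.A, T₂ x = gS x := fun x hx => by simp [hT₂, hx]
  have eA3 : ∀ x ∈ D.A, T₃ x = hS' x := fun x hx => by simp [hT₃, hx]
  have nA : ∀ {q}, (∃ i, q ∈ D.BG i ∨ q ∈ D.BH i) → q ∉ D.A := by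
    rintro q ⟨i, hq | hq⟩ hA
    · exact D.dAG i q hA hq
    · exact D.dAH i q hA hq
  have eG : ∀ i, ∀ x ∈ D.A, T₂ (D.g i x) = D.h i x ∧ T₃ (D.g i x) = x := by
    intro i x hx
    have h1 := D.mg i x hx
    have h2 := nA ⟨i, Or.inl h1⟩
    cases i with
    | false =>
      constructor
      · simp only [hT₂, h2, if_false, h1, if_true, D.lg false x hx]
      · simp only [hT₃, h2, if_false, h1, if_true, D.lg false x hx]
    | true =>
      have h3 := D.dGG _ h1
      constructor
      · simp only [hT₂, h2, if_false, h1, if_true, h3, D.lg true x hx]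
      · simp only [hT₃, h2, if_false, h1, if_true, h3, D.lg true x hx]
  have eH : ∀ i, ∀ x ∈ D.A, T₂ (D.h i x) = x ∧ T₃ (D.h i x) = D.g i x := by
    intro i x hx
    have h1 := D.mh i x hx
    have h2 := nA ⟨i, Or.inr h1⟩
    have h4 : D.h i x ∉ D.BG false := fun hc => D.dGH _ _ _ hc h1
    have h5 : D.h i x ∉ D.BG true := fun hc => D.dGH _ _ _ hc h1
    cases i with
    | false =>
      constructor
      · simp only [hT₂, h2, if_false, h1, if_true, h4, h5, D.lh false x hx]
      · simp only [hT₃, h2, if_false, h1, if_true, h4, h5, D.lh false x hx]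
    | true =>
      have h3 := D.dHH _ h1
      constructor
      · simp only [hT₂, h2, if_false, h1, if_true, h3, h4, h5, D.lh true x hx]
      · simp only [hT₃, h2, if_false, h1, if_true, h3, h4, h5, D.lh true x hx]
  -- integrals
  have iS : ∀ (F : Bool → E → ℝ≥0∞), (∀ b, Measurable (F b)) →
      ∫⁻ x, F (S x).2 (S x).1 ∂D.μA = (1 / 2) * (∫⁻ x, F true x ∂D.μA + ∫⁻ x, F false x ∂D.μA) := by
    intro F hF
    have hm : Measurable (fun y : E × Bool => F y.2 y.1) := by
      have : (fun y : E × Bool => F y.2 y.1) = fun y => if y.2 = true then F true y.1 else F false y.1 := by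
        funext y
        rcases hy : y.2 with _ | _ <;> simp
      rw [this]
      exact Measurable.ite (measurable_snd (measurableSet_singleton true))
        ((hF true).comp measurable_fst) ((hF false).comp measurable_fst)
    exact hSint _ hm
  have push2 : D.μ.map T₂ = D.μ := by
    refine Measure.ext_of_lintegral _ fun φ hφ => ?_
    rw [lintegral_map hφ mT₂, D.LI (fun x => φ (T₂ x)) (hφ.comp mT₂), D.LI φ hφ]
    have k1 : ∫⁻ x, φ (T₂ x) ∂D.μA = (1 / 2) * (∫⁻ x, φ (D.g true x) ∂D.μA + ∫⁻ x, φ (D.g false x) ∂D.μA) := by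
      rw [← iS (fun b x => φ (D.g b x)) (fun b => hφ.comp (hg b))]
      apply lintegral_congr_ae
      filter_upwards [D.hμA] with x hx
      rw [eA2 x hx]
      simp only [hgS]
      rcases hb : (S x).2 with _ | _ <;> simp
    have k2 : ∀ i, ∫⁻ x, φ (T₂ (D.g i x)) ∂D.μA = ∫⁻ x, φ (D.h i x) ∂D.μA := fun i => by
      apply lintegral_congr_ae
      filter_upwards [D.hμA] with x hx
      rw [(eG i x hx).1]
    have k3 : ∀ i, ∫⁻ x, φ (T₂ (D.h i x)) ∂D.μA = ∫⁻ x, φ x ∂D.μA := fun i => by
      apply lintegral_congr_ae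
      filter_upwards [D.hμA] with x hx
      rw [(eH i x hx).1]
    simp only [Fintype.sum_bool]
    rw [k1, k2, k2, k3, k3]
    set J := ∫⁻ x, φ x ∂D.μA
    set a := ∫⁻ x, φ (D.g true x) ∂D.μA
    set b := ∫⁻ x, φ (D.g false x) ∂D.μA
    set a' := ∫⁻ x, φ (D.h true x) ∂D.μA
    set b' := ∫⁻ x, φ (D.h false x) ∂D.μA
    calc 1 / 2 * (a + b) + 1 / 2 * (a' + J + (b' + J)) = 1 / 2 * (J + J) + 1 / 2 * (a + a' + (b + b')) := by ring
      _ = _ := by rw [half_two]
  have push3 : D.μ.map T₃ = D.μ := by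
    refine Measure.ext_of_lintegral _ fun φ hφ => ?_
    rw [lintegral_map hφ mT₃, D.LI (fun x => φ (T₃ x)) (hφ.comp mT₃), D.LI φ hφ]
    have k1 : ∫⁻ x, φ (T₃ x) ∂D.μA = (1 / 2) * (∫⁻ x, φ (D.h true x) ∂D.μA + ∫⁻ x, φ (D.h false x) ∂D.μA) := by
      rw [← iS (fun b x => φ (D.h b x)) (fun b => hφ.comp (hh b))]
      apply lintegral_congr_ae
      filter_upwards [D.hμA] with x hx
      rw [eA3 x hx]
      simp only [hhS]
      rcases hb : (S x).2 with _ | _ <;> simp
    have k2 : ∀ i, ∫⁻ x, φ (T₃ (D.g i x)) ∂D.μA = ∫⁻ x, φ x ∂D.μA := fun i => by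
      apply lintegral_congr_ae
      filter_upwards [D.hμA] with x hx
      rw [(eG i x hx).2]
    have k3 : ∀ i, ∫⁻ x, φ (T₃ (D.h i x)) ∂D.μA = ∫⁻ x, φ (D.g i x) ∂D.μA := fun i => by
      apply lintegral_congr_ae
      filter_upwards [D.hμA] with x hx
      rw [(eH i x hx).2]
    simp only [Fintype.sum_bool]
    rw [k1, k2, k2, k3, k3]
    set J := ∫⁻ x, φ x ∂D.μA
    set a := ∫⁻ x, φ (D.g true x) ∂D.μA
    set b := ∫⁻ x, φ (D.g false x) ∂D.μA
    set a' := ∫⁻ x, φ (D.h true x) ∂D.μA
    set b' := ∫⁻ x, φ (D.h false x) ∂D.μA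
    calc 1 / 2 * (a' + b') + 1 / 2 * (J + a + (J + b)) = 1 / 2 * (J + J) + 1 / 2 * (a + a' + (b + b')) := by ring
      _ = _ := by rw [half_two]
  refine ⟨T₂, T₃, mT₂, mT₃, push2, push3, ?_⟩
  -- the cost
  have hcost : ∫⁻ x, D.c (x, T₂ x, T₃ x) ∂D.μ ≤ ∫⁻ p, D.c p ∂D.plan + ε' := by
    rw [D.LI _ (by fun_prop), D.lintegral_plan D.hc]
    have k1 : ∫⁻ x, D.c (x, T₂ x, T₃ x) ∂D.μA ≤ (1 / 2) * (∫⁻ x, D.c (x, D.g true x, D.h true x) ∂D.μA
        + ∫⁻ x, D.c (x, D.g false x, D.h false x) ∂D.μA) + ε' := by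
      calc ∫⁻ x, D.c (x, T₂ x, T₃ x) ∂D.μA
          ≤ ∫⁻ x, (D.c ((S x).1, D.g (S x).2 (S x).1, D.h (S x).2 (S x).1) + ε') ∂D.μA := by
            apply lintegral_mono_ae
            filter_upwards [D.hμA, hSA, hSd] with x hx hx' hd
            rw [eA2 x hx, eA3 x hx]
            have e1 : gS x = D.g (S x).2 (S x).1 := by
              simp only [hgS]
              rcases hb : (S x).2 with _ | _ <;> simp
            have e2 : hS' x = D.h (S x).2 (S x).1 := by
              simp only [hhS]
              rcases hb : (S x).2 with _ | _ <;> simp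
            rw [e1, e2]
            exact hcont (S x).2 x hx (S x).1 hx' hd
        _ = ∫⁻ x, D.c ((S x).1, D.g (S x).2 (S x).1, D.h (S x).2 (S x).1) ∂D.μA
            + ε' * D.μA univ := by
            rw [lintegral_add_right _ measurable_const, lintegral_const]
        _ ≤ _ := by
            rw [iS (fun b x => D.c (x, D.g b x, D.h b x)) (fun b => by fun_prop)]
            gcongr
            calc ε' * D.μA univ ≤ ε' * 1 := by gcongr; exact D.muA_univ_le
              _ = ε' := mul_one _
    have k2 : ∀ i, ∫⁻ x, D.c (D.g i x, T₂ (D.g i x), T₃ (D.g i x)) ∂D.μA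
        = ∫⁻ x, D.c (D.g i x, D.h i x, x) ∂D.μA := fun i => by
      apply lintegral_congr_ae
      filter_upwards [D.hμA] with x hx
      rw [(eG i x hx).1, (eG i x hx).2]
    have k3 : ∀ i, ∫⁻ x, D.c (D.h i x, T₂ (D.h i x), T₃ (D.h i x)) ∂D.μA
        = ∫⁻ x, D.c (D.h i x, x, D.g i x) ∂D.μA := fun i => by
      apply lintegral_congr_ae
      filter_upwards [D.hμA] with x hx
      rw [(eH i x hx).1, (eH i x hx).2]
    simp only [Fintype.sum_bool]
    rw [k2, k2, k3, k3]
    refine (add_le_add_left k1 _).trans (le_of_eq ?_)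
    ring
  refine lt_of_le_of_lt hcost ?_
  exact ENNReal.add_lt_add_left D.plan_cost_lt_top.ne hε'

end TwoBranch
end approx
end Crest.Agent.OT3
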