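import Mathlib
set_option autoImplicit false
set_option linter.unusedSectionVars false
open MeasureTheory ProbabilityTheory Filter Set
open scoped Topology ENNReal ContDiff

namespace Crest.Agent.OT3

section pushforward0
variable {E : Type*} [NormedAddCommGroup E] [InnerProductSpace ℝ E] [FiniteDimensional ℝ E]

lemma contDiff_det : ContDiff ℝ ∞ (fun A : E →L[ℝ] E => A.det) := by
  classical
  set b := Module.finBasis ℝ E with hb
  have h : (fun A : E →L[ℝ] E => A.det) = fun A : E →L[ℝ] E =>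
      (LinearMap.toMatrix b b (A : E →ₗ[ℝ] E)).det := by
    funext A
    rw [LinearMap.det_toMatrix]
  rw [h]
  simp_rw [Matrix.det_apply]
  apply ContDiff.sum
  intro τ _
  apply ContDiff.const_smul
  apply contDiff_prod
  intro i _
  simp_rw [LinearMap.toMatrix_apply]
  have h2 : (fun A : E →L[ℝ] E => (b.repr ((A : E →ₗ[ℝ] E) (b i))) (τ i)) =
      fun A : E →L[ℝ] E => (LinearMap.toContinuousLinearMap (b.coord (τ i))) (A (b i)) := by
    funext A
    simp
  rw [h2]
  fun_prop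

theorem exists_equiv_of_det {A : E →L[ℝ] E} (h : A.det ≠ 0) :
    ∃ e : E ≃L[ℝ] E, (e : E →L[ℝ] E) = A := by
  have h1 : LinearMap.det (A : E →ₗ[ℝ] E) ≠ 0 := h
  refine ⟨(LinearMap.equivOfDetNeZero (A : E →ₗ[ℝ] E) h1).toContinuousLinearEquiv, ?_⟩
  ext x
  simp [LinearMap.equivOfDetNeZero]

/-- smooth chart -/
structure SmoothChart (e : OpenPartialHomeomorph E E) : Prop where
  smooth : ContDiffOn ℝ ∞ e e.source
  smooth_symm : ContDiffOn ℝ ∞ e.symm e.target

lemma SmoothChart.det_ne {e : OpenPartialHomeomorph E E} (h : SmoothChart e) {y : E}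
    (hy : y ∈ e.target) : (fderiv ℝ e.symm y).det ≠ 0 := by
  have h1 : DifferentiableAt ℝ e.symm y :=
    ((h.smooth_symm.differentiableOn (by simp)) y hy).differentiableAt (e.open_target.mem_nhds hy)
  have hx : e.symm y ∈ e.source := e.map_target hy
  have h2 : DifferentiableAt ℝ e (e.symm y) :=
    ((h.smooth.differentiableOn (by simp)) _ hx).differentiableAt (e.open_source.mem_nhds hx)
  have h3 : HasFDerivAt (e ∘ e.symm) ((fderiv ℝ e (e.symm y)).comp (fderiv ℝ e.symm y)) y :=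
    h2.hasFDerivAt.comp y h1.hasFDerivAt
  have h4 : (e ∘ e.symm) =ᶠ[𝓝 y] id := by
    filter_upwards [e.open_target.mem_nhds hy] with z hz
    simp [e.right_inv hz]
  have h5 : HasFDerivAt (e ∘ e.symm) (ContinuousLinearMap.id ℝ E) y :=
    (hasFDerivAt_id y).congr_of_eventuallyEq h4
  have h6 := h3.unique h5
  intro h0
  have h7 : ((fderiv ℝ e (e.symm y)).comp (fderiv ℝ e.symm y)).det = 1 := by
    rw [h6]
    exact LinearMap.det_id
  have h8 : ((fderiv ℝ e (e.symm y)).comp (fderiv ℝ e.symm y)).det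
      = (fderiv ℝ e (e.symm y)).det * (fderiv ℝ e.symm y).det := by
    exact LinearMap.det_comp _ _
  rw [h8, h0, mul_zero] at h7
  exact zero_ne_one h7

end pushforward0

section pushforward
variable {E : Type*} [NormedAddCommGroup E] [InnerProductSpace ℝ E] [FiniteDimensional ℝ E]
  [MeasurableSpace E] [BorelSpace E]

theorem smooth_pushforward {e : OpenPartialHomeomorph E E} (h : SmoothChart e) {η : E → ℝ}
    (hη : ContDiff ℝ ∞ η) (hη0 : ∀ x, 0 ≤ η x) (hηc : HasCompactSupport η)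
    (hηs : tsupport η ⊆ e.source) :
    ∃ ζ : E → ℝ, ContDiff ℝ ∞ ζ ∧ (∀ x, 0 ≤ ζ x) ∧ (∀ y, y ∉ e '' (tsupport η) → ζ y = 0) ∧
      ∀ φ : E → ℝ≥0∞, Measurable φ → ∫⁻ y, φ y * ENNReal.ofReal (ζ y ^ 2)
        = (1 / 2) * ∫⁻ x, φ (e x) * ENNReal.ofReal (η x ^ 2) := by
  classical
  set ζ : E → ℝ := fun y => if y ∈ e.target then
    η (e.symm y) * Real.sqrt (|(fderiv ℝ e.symm y).det| / 2) else 0 with hζ
  have hK : IsCompact (e '' (tsupport η)) :=
    hηc.isCompact.image_of_continuousOn (e.continuousOn.mono hηs)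
  have hzero : ∀ y, y ∉ e '' (tsupport η) → ζ y = 0 := by
    intro y hy
    by_cases hyt : y ∈ e.target
    · have : e.symm y ∉ tsupport η := by
        intro hc
        exact hy ⟨e.symm y, hc, e.right_inv hyt⟩
      simp only [hζ, hyt, if_true]
      rw [image_eq_zero_of_notMem_tsupport this, zero_mul]
    · simp [hζ, hyt]
  refine ⟨ζ, ?_, ?_, hzero, ?_⟩
  · rw [contDiff_iff_contDiffAt]
    intro y
    by_cases hyt : y ∈ e.target
    · have h1 : ζ =ᶠ[𝓝 y] fun y => η (e.symm y) * Real.sqrt (|(fderiv ℝ e.symm y).det| / 2) := by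
        filter_upwards [e.open_target.mem_nhds hyt] with z hz
        simp [hζ, hz]
      refine ContDiffAt.congr_of_eventuallyEq ?_ h1
      have h2 : ContDiffAt ℝ ∞ e.symm y := h.smooth_symm.contDiffAt (e.open_target.mem_nhds hyt)
      have h3 : ContDiffAt ℝ ∞ (fderiv ℝ e.symm) y :=
        (h.smooth_symm.fderiv_of_isOpen e.open_target (by simp)).contDiffAt
          (e.open_target.mem_nhds hyt)
      have h4 : ContDiffAt ℝ ∞ (fun y => (fderiv ℝ e.symm y).det) y :=
        contDiff_det.contDiffAt.comp y h3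
      have hd : (fderiv ℝ e.symm y).det ≠ 0 := h.det_ne hyt
      apply ContDiffAt.mul
      · exact hη.contDiffAt.comp y h2
      · apply ContDiffAt.sqrt
        · exact (h4.abs hd).div_const _
        · have : 0 < |(fderiv ℝ e.symm y).det| := abs_pos.2 hd
          positivity
    · have h1 : ζ =ᶠ[𝓝 y] fun _ => 0 := by
        have hyK : y ∉ e '' (tsupport η) := by
          rintro ⟨x, hx, rfl⟩
          exact hyt (e.map_source (hηs hx))
        filter_upwards [hK.isClosed.isOpen_compl.mem_nhds hyK] with z hz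
        exact hzero z hz
      exact contDiffAt_const.congr_of_eventuallyEq h1
  · intro y
    simp only [hζ]
    split_ifs
    · exact mul_nonneg (hη0 _) (Real.sqrt_nonneg _)
    · exact le_rfl
  · intro φ hφ
    have h1 : ∫⁻ y, φ y * ENNReal.ofReal (ζ y ^ 2)
        = ∫⁻ y in e.target, φ y * ENNReal.ofReal (ζ y ^ 2) := by
      rw [← lintegral_indicator e.open_target.measurableSet]
      refine lintegral_congr fun y => ?_
      by_cases hy : y ∈ e.target
      · simp [hy]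
      · simp [hζ, hy]
    have h2 : ∫⁻ x, φ (e x) * ENNReal.ofReal (η x ^ 2)
        = ∫⁻ x in e.source, φ (e x) * ENNReal.ofReal (η x ^ 2) := by
      rw [← lintegral_indicator e.open_source.measurableSet]
      refine lintegral_congr fun y => ?_
      by_cases hy : y ∈ e.source
      · simp [hy]
      · have : η y = 0 := image_eq_zero_of_notMem_tsupport fun hc => hy (hηs hc)
        simp [hy, this]
    have h3 := lintegral_image_eq_lintegral_abs_det_fderiv_mul (μ := (volume : Measure E))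
      e.open_target.measurableSet (f := e.symm) (f' := fderiv ℝ e.symm)
      (fun y hy => (((h.smooth_symm.differentiableOn (by simp)) y hy).differentiableAt
        (e.open_target.mem_nhds hy)).hasFDerivAt.hasFDerivWithinAt)
      e.symm.injOn (fun x => φ (e x) * ENNReal.ofReal (η x ^ 2))
    rw [e.symm_image_target_eq_source] at h3
    rw [h1, h2, h3, ← lintegral_const_mul']
    · refine setLIntegral_congr_fun e.open_target.measurableSet fun y hy => ?_
      have h4 : ζ y = η (e.symm y) * Real.sqrt (|(fderiv ℝ e.symm y).det| / 2) := by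
        simp [hζ, hy]
      simp only [h4, e.right_inv hy]
      rw [mul_pow, Real.sq_sqrt (by positivity), ENNReal.ofReal_mul (by positivity),
        ENNReal.ofReal_div_of_pos (by norm_num)]
      simp only [ENNReal.ofReal_ofNat]
      rw [one_div, ENNReal.div_eq_inv_mul]
      ring
    · simp

end pushforward

section pushforward1
variable {E : Type*} [NormedAddCommGroup E] [InnerProductSpace ℝ E] [FiniteDimensional ℝ E]

theorem exists_smoothChart {g : E → E} (hg : ContDiffAt ℝ ω g 0)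
    (hdet : (fderiv ℝ g 0).det ≠ 0) :
    ∃ δ > 0, ∀ δ', 0 < δ' → δ' ≤ δ → ∃ e : OpenPartialHomeomorph E E,
      e.source = Metric.ball 0 δ' ∧ (e : E → E) = g ∧ SmoothChart e := by
  obtain ⟨e', he'⟩ := exists_equiv_of_det hdet
  have hgd : HasFDerivAt g (e' : E →L[ℝ] E) 0 := by
    rw [he']; exact (hg.differentiableAt (by simp)).hasFDerivAt
  set e₀ := hg.toOpenPartialHomeomorph g hgd (by simp) with he₀
  have h0 : (0 : E) ∈ e₀.source := hg.mem_toOpenPartialHomeomorph_source hgd (by simp)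
  have h1 : ∀ᶠ x in 𝓝 (0 : E), x ∈ e₀.source := e₀.open_source.mem_nhds h0
  have h2 : ∀ᶠ x in 𝓝 (0 : E), ContDiffAt ℝ ω g x := hg.eventually (by simp)
  have h3 : ∀ᶠ x in 𝓝 (0 : E), (fderiv ℝ g x).det ≠ 0 := by
    have h4 : ContinuousAt (fun x => (fderiv ℝ g x).det) 0 := by
      have h5 : ContinuousAt (fderiv ℝ g) 0 :=
        (hg.fderiv_right (m := 0) (by simp)).continuousAt
      exact (ContinuousLinearMap.continuous_det.continuousAt).comp h5
    exact h4.eventually_ne hdet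
  obtain ⟨δ, hδ, hball⟩ := Metric.eventually_nhds_iff_ball.1 (h1.and (h2.and h3))
  refine ⟨δ, hδ, fun δ' hδ' hle => ?_⟩
  have hsub : Metric.ball (0 : E) δ' ⊆ Metric.ball 0 δ := Metric.ball_subset_ball hle
  set e := e₀.restrOpen (Metric.ball 0 δ') Metric.isOpen_ball with he
  have hsrc : e.source = Metric.ball 0 δ' := by
    rw [he, OpenPartialHomeomorph.restrOpen_source]
    exact inter_eq_right.2 fun x hx => (hball x (hsub hx)).1
  have hcoe : (e : E → E) = g := rfl
  refine ⟨e, hsrc, hcoe, ⟨?_, ?_⟩⟩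
  · rw [hsrc, hcoe]
    intro x hx
    exact ((hball x (hsub hx)).2.1.of_le (by simp)).contDiffWithinAt
  · intro y hy
    have hx : e.symm y ∈ e.source := e.map_target hy
    rw [hsrc] at hx
    obtain ⟨-, h5, h6⟩ := hball _ (hsub hx)
    obtain ⟨e'', he''⟩ := exists_equiv_of_det h6
    have h7 : HasFDerivAt e (e'' : E →L[ℝ] E) (e.symm y) := by
      rw [he'', hcoe]; exact (h5.differentiableAt (by simp)).hasFDerivAt
    exact (e.contDiffAt_symm hy h7 (by rw [hcoe]; exact h5.of_le (by simp))).contDiffWithinAt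

end pushforward1

section ift
variable {E : Type*} [NormedAddCommGroup E] [InnerProductSpace ℝ E] [FiniteDimensional ℝ E]

/-- the force field `v / ‖v‖^(s+2)` -/
noncomputable def FF (s : ℝ) (v : E) : E := (‖v‖ ^ 2) ^ (-(s + 2) / 2) • v

lemma FF_neg (s : ℝ) (v : E) : FF s (-v) = - FF s v := by
  simp [FF]

/-- the derivative of `FF` -/
noncomputable def DFF (s : ℝ) (v : E) : E →L[ℝ] E :=
  ((‖v‖ ^ 2) ^ (-(s + 2) / 2)) • ContinuousLinearMap.id ℝ E
    + (((-(s + 2) / 2) * (‖v‖ ^ 2) ^ (-(s + 2) / 2 - 1)) • (2 • (innerSL ℝ v))).smulRight v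

lemma FF_hasStrictFDerivAt (s : ℝ) {v : E} (hv : v ≠ 0) :
    HasStrictFDerivAt (FF s) (DFF s v) v := by
  have h1 : HasStrictFDerivAt (fun v : E => ‖v‖ ^ 2) (2 • (innerSL ℝ v)) v :=
    hasStrictFDerivAt_norm_sq v
  have hne : ‖v‖ ^ 2 ≠ 0 := by
    have := norm_pos_iff.2 hv
    positivity
  have h2 : HasStrictFDerivAt (fun v : E => (‖v‖ ^ 2) ^ (-(s + 2) / 2))
      (((-(s + 2) / 2) * (‖v‖ ^ 2) ^ (-(s + 2) / 2 - 1)) • (2 • (innerSL ℝ v))) v :=
    h1.rpow_const (Or.inl hne)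
  exact h2.smul (hasStrictFDerivAt_id v)

lemma FF_contDiffAt (s : ℝ) {v : E} (hv : v ≠ 0) : ContDiffAt ℝ ω (FF s) v := by
  unfold FF
  apply ContDiffAt.smul _ contDiffAt_id
  apply ContDiffAt.rpow_const_of_ne
  · exact (contDiff_norm_sq ℝ).contDiffAt
  · have := norm_pos_iff.2 hv
    positivity

/-- the basic symmetric operator -/
noncomputable def Tm (s : ℝ) (u w : E) : E := w - ((s + 2) * inner ℝ u w) • u

lemma Tm_sub (s : ℝ) (u a b : E) : Tm s u (a - b) = Tm s u a - Tm s u b := by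
  simp only [Tm, inner_sub_right, mul_sub, sub_smul]
  abel

lemma DFF_unit (s : ℝ) {u : E} (hu : ‖u‖ = 1) (w : E) : DFF s u w = Tm s u w := by
  simp only [DFF, hu, Tm, add_apply, smul_apply,
    ContinuousLinearMap.id_apply, ContinuousLinearMap.smulRight_apply, innerSL_apply_apply,
    one_pow, Real.one_rpow, one_smul, nsmul_eq_mul, smul_eq_mul, Nat.cast_ofNat]
  rw [sub_eq_add_neg, ← neg_smul]
  congr 2
  ring

lemma DFF_neg_unit (s : ℝ) {u : E} (hu : ‖u‖ = 1) (w : E) : DFF s (-u) w = Tm s u w := by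
  rw [DFF_unit s (by rw [norm_neg, hu])]
  simp [Tm]

lemma DFF_two_unit (s : ℝ) {u : E} (hu : ‖u‖ = 1) (w : E) :
    DFF s ((2 : ℝ) • u) w = (4 : ℝ) ^ (-(s + 2) / 2) • Tm s u w := by
  have h1 : ‖(2 : ℝ) • u‖ ^ 2 = 4 := by rw [norm_smul, hu]; norm_num
  have h2 : (4 : ℝ) ^ (-(s + 2) / 2 - 1) = (4 : ℝ) ^ (-(s + 2) / 2) / 4 := by
    rw [Real.rpow_sub_one (by norm_num)]
  simp only [DFF, h1, Tm, add_apply, smul_apply,
    ContinuousLinearMap.id_apply, ContinuousLinearMap.smulRight_apply, innerSL_apply_apply,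
    nsmul_eq_mul, smul_eq_mul, Nat.cast_ofNat, h2, smul_sub, smul_smul, real_inner_smul_left]
  rw [sub_eq_add_neg, ← neg_smul]
  congr 2
  ring

/-- the critical point map -/
noncomputable def Phi (s κ θ : ℝ) (u : E) (p : E × (E × E)) : E × E :=
  (FF s (p.1 - p.2.1) + FF s (p.1 - p.2.2) - (2 * κ) • p.1,
    FF s (p.2.1 - p.1) + FF s (p.2.1 - p.2.2) - (2 * κ) • (p.2.1 - u) - (1 + 2 * θ) • u)

/-- its derivative at the base point -/
noncomputable def LPhi (s κ : ℝ) (u : E) : (E × (E × E)) →L[ℝ] (E × E) :=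
  ((DFF s (-u)).comp (ContinuousLinearMap.fst ℝ E (E × E)
      - (ContinuousLinearMap.fst ℝ E E).comp (ContinuousLinearMap.snd ℝ E (E × E)))
    + (DFF s u).comp (ContinuousLinearMap.fst ℝ E (E × E)
      - (ContinuousLinearMap.snd ℝ E E).comp (ContinuousLinearMap.snd ℝ E (E × E)))
    - (2 * κ) • ContinuousLinearMap.fst ℝ E (E × E)).prod
  ((DFF s u).comp ((ContinuousLinearMap.fst ℝ E E).comp (ContinuousLinearMap.snd ℝ E (E × E))
      - ContinuousLinearMap.fst ℝ E (E × E))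
    + (DFF s ((2 : ℝ) • u)).comp
      ((ContinuousLinearMap.fst ℝ E E).comp (ContinuousLinearMap.snd ℝ E (E × E))
      - (ContinuousLinearMap.snd ℝ E E).comp (ContinuousLinearMap.snd ℝ E (E × E)))
    - (2 * κ) • (ContinuousLinearMap.fst ℝ E E).comp (ContinuousLinearMap.snd ℝ E (E × E)))

lemma LPhi_apply (s κ : ℝ) {u : E} (hu : ‖u‖ = 1) (ξ υ ζ : E) :
    LPhi s κ u (ξ, (υ, ζ)) = (Tm s u (ξ - υ) + Tm s u (ξ - ζ) - (2 * κ) • ξ,
      Tm s u (υ - ξ) + (4 : ℝ) ^ (-(s + 2) / 2) • Tm s u (υ - ζ) - (2 * κ) • υ) := by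
  simp [LPhi, DFF_unit s hu, DFF_neg_unit s hu, DFF_two_unit s hu, Tm_sub, smul_sub]

lemma Phi_hasStrictFDerivAt (s κ θ : ℝ) {u : E} (hu : ‖u‖ = 1) :
    HasStrictFDerivAt (Phi s κ θ u) (LPhi s κ u) (0, (u, -u)) := by
  have hu0 : u ≠ 0 := by intro h; rw [h, norm_zero] at hu; exact zero_ne_one hu
  have h1 : HasStrictFDerivAt (fun p : E × (E × E) => p.1) (ContinuousLinearMap.fst ℝ E (E × E))
      (0, (u, -u)) := hasStrictFDerivAt_fst
  have h2 : HasStrictFDerivAt (fun p : E × (E × E) => p.2.1)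
      ((ContinuousLinearMap.fst ℝ E E).comp (ContinuousLinearMap.snd ℝ E (E × E)))
      (0, (u, -u)) :=
    ((ContinuousLinearMap.fst ℝ E E).comp (ContinuousLinearMap.snd ℝ E (E × E))).hasStrictFDerivAt
  have h3 : HasStrictFDerivAt (fun p : E × (E × E) => p.2.2)
      ((ContinuousLinearMap.snd ℝ E E).comp (ContinuousLinearMap.snd ℝ E (E × E)))
      (0, (u, -u)) :=
    ((ContinuousLinearMap.snd ℝ E E).comp (ContinuousLinearMap.snd ℝ E (E × E))).hasStrictFDerivAt
  have e1 : (0 : E) - u = -u := by simp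
  have e2 : (0 : E) - (-u) = u := by simp
  have e3 : u - (-u) = (2 : ℝ) • u := by rw [two_smul]; abel
  have h20 : (2 : ℝ) • u ≠ 0 := smul_ne_zero (by norm_num) hu0
  have k1' : HasStrictFDerivAt (FF s) (DFF s (-u))
      ((fun p : E × (E × E) => p.1 - p.2.1) (0, (u, -u))) := by
    simp only
    rw [e1]
    exact FF_hasStrictFDerivAt s (neg_ne_zero.2 hu0)
  have k1'' : HasStrictFDerivAt (fun p : E × (E × E) => p.1 - p.2.1) _ (0, (u, -u)) := h1.sub h2
  have k1 := HasStrictFDerivAt.comp (f := fun p : E × (E × E) => p.1 - p.2.1) (0, (u, -u)) k1' k1''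
  have k2' : HasStrictFDerivAt (FF s) (DFF s u)
      ((fun p : E × (E × E) => p.1 - p.2.2) (0, (u, -u))) := by
    simp only
    rw [e2]
    exact FF_hasStrictFDerivAt s hu0
  have k2'' : HasStrictFDerivAt (fun p : E × (E × E) => p.1 - p.2.2) _ (0, (u, -u)) := h1.sub h3
  have k2 := HasStrictFDerivAt.comp (f := fun p : E × (E × E) => p.1 - p.2.2) (0, (u, -u)) k2' k2''
  have k3' : HasStrictFDerivAt (FF s) (DFF s u)
      ((fun p : E × (E × E) => p.2.1 - p.1) (0, (u, -u))) := by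
    simp only
    rw [sub_zero]
    exact FF_hasStrictFDerivAt s hu0
  have k3'' : HasStrictFDerivAt (fun p : E × (E × E) => p.2.1 - p.1) _ (0, (u, -u)) := h2.sub h1
  have k3 := HasStrictFDerivAt.comp (f := fun p : E × (E × E) => p.2.1 - p.1) (0, (u, -u)) k3' k3''
  have k4' : HasStrictFDerivAt (FF s) (DFF s ((2 : ℝ) • u))
      ((fun p : E × (E × E) => p.2.1 - p.2.2) (0, (u, -u))) := by
    simp only
    rw [e3]
    exact FF_hasStrictFDerivAt s h20
  have k4'' : HasStrictFDerivAt (fun p : E × (E × E) => p.2.1 - p.2.2) _ (0, (u, -u)) := h2.sub h3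
  have k4 := HasStrictFDerivAt.comp (f := fun p : E × (E × E) => p.2.1 - p.2.2) (0, (u, -u)) k4' k4''
  have h4 := ((k1.add k2).sub (h1.const_smul (2 * κ))).prodMk
    (((k3.add k4).sub ((h2.sub_const u).const_smul (2 * κ))).sub_const ((1 + 2 * θ) • u))
  exact h4

lemma Phi_contDiffAt (s κ θ : ℝ) {u : E} (hu : ‖u‖ = 1) :
    ContDiffAt ℝ ω (Phi s κ θ u) (0, (u, -u)) := by
  have hu0 : u ≠ 0 := by intro h; rw [h, norm_zero] at hu; exact zero_ne_one hu
  have h1 : ContDiffAt ℝ ω (fun p : E × (E × E) => p.1) (0, (u, -u)) := by fun_prop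
  have h2 : ContDiffAt ℝ ω (fun p : E × (E × E) => p.2.1) (0, (u, -u)) := by fun_prop
  have h3 : ContDiffAt ℝ ω (fun p : E × (E × E) => p.2.2) (0, (u, -u)) := by fun_prop
  have e1 : (0 : E) - u = -u := by simp
  have e2 : (0 : E) - (-u) = u := by simp
  have e3 : u - (-u) = (2 : ℝ) • u := by rw [two_smul]; abel
  have h20 : (2 : ℝ) • u ≠ 0 := smul_ne_zero (by norm_num) hu0
  have k1 : ContDiffAt ℝ ω (fun p : E × (E × E) => FF s (p.1 - p.2.1)) (0, (u, -u)) := by
    refine ContDiffAt.comp (g := FF s) _ ?_ (h1.sub h2)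
    simp only
    rw [e1]
    exact FF_contDiffAt s (neg_ne_zero.2 hu0)
  have k2 : ContDiffAt ℝ ω (fun p : E × (E × E) => FF s (p.1 - p.2.2)) (0, (u, -u)) := by
    refine ContDiffAt.comp (g := FF s) _ ?_ (h1.sub h3)
    simp only
    rw [e2]
    exact FF_contDiffAt s hu0
  have k3 : ContDiffAt ℝ ω (fun p : E × (E × E) => FF s (p.2.1 - p.1)) (0, (u, -u)) := by
    refine ContDiffAt.comp (g := FF s) _ ?_ (h2.sub h1)
    simp only
    rw [sub_zero]
    exact FF_contDiffAt s hu0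
  have k4 : ContDiffAt ℝ ω (fun p : E × (E × E) => FF s (p.2.1 - p.2.2)) (0, (u, -u)) := by
    refine ContDiffAt.comp (g := FF s) _ ?_ (h2.sub h3)
    simp only
    rw [e3]
    exact FF_contDiffAt s h20
  unfold Phi
  exact ((k1.add k2).sub (contDiffAt_const.smul h1)).prodMk
    (((k3.add k4).sub (contDiffAt_const.smul (h2.sub contDiffAt_const))).sub contDiffAt_const)

lemma Phi_base (s κ : ℝ) {u : E} (hu : ‖u‖ = 1) :
    Phi s κ ((4 : ℝ) ^ (-(s + 2) / 2)) u (0, (u, -u)) = 0 := by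
  have e1 : (0 : E) - u = -u := by simp
  have e2 : (0 : E) - (-u) = u := by simp
  have e3 : u - (-u) = (2 : ℝ) • u := by rw [two_smul]; abel
  have h1 : FF s u = u := by simp [FF, hu]
  have h2 : FF s (-u) = -u := by rw [FF_neg, h1]
  have h3 : FF s ((2 : ℝ) • u) = (2 * (4 : ℝ) ^ (-(s + 2) / 2)) • u := by
    have : ‖(2 : ℝ) • u‖ ^ 2 = 4 := by rw [norm_smul, hu]; norm_num
    rw [FF, this, smul_smul, mul_comm]
  simp only [Phi, e1, e2, e3, h1, h2, h3, sub_zero, sub_self, smul_zero]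
  ext
  · simp
  · simp only [Prod.snd_zero]
    rw [add_smul, one_smul]
    abel

omit [FiniteDimensional ℝ E] in
lemma Tm_add (s : ℝ) (u a b : E) : Tm s u (a + b) = Tm s u a + Tm s u b := by
  simp only [Tm, inner_add_right, mul_add, add_smul]
  abel

omit [FiniteDimensional ℝ E] in
lemma Tm_neg (s : ℝ) (u a : E) : Tm s u (-a) = - Tm s u a := by
  simp only [Tm, inner_neg_right, mul_neg, neg_smul]
  abel

omit [FiniteDimensional ℝ E] in
lemma Tm_smul (s c : ℝ) (u a : E) : Tm s u (c • a) = c • Tm s u a := by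
  simp only [Tm, inner_smul_right, smul_sub, smul_smul]
  congr 2
  ring

omit [FiniteDimensional ℝ E] in
lemma Tm_inner (s : ℝ) {u : E} (hu : ‖u‖ = 1) (a : E) :
    inner ℝ u (Tm s u a) = -(s + 1) * inner ℝ u a := by
  simp only [Tm, inner_sub_right, inner_smul_right, real_inner_self_eq_norm_sq, hu]
  ring

omit [FiniteDimensional ℝ E] in
lemma Tm_of_inner_zero (s : ℝ) {u a : E} (h : inner ℝ u a = 0) : Tm s u a = a := by
  simp [Tm, h]

omit [FiniteDimensional ℝ E] in
lemma Tm_quad_le (s : ℝ) (hs : 0 < s) (u a : E) : inner ℝ a (Tm s u a) ≤ ‖a‖ ^ 2 := by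
  simp only [Tm, inner_sub_right, inner_smul_right, real_inner_self_eq_norm_sq]
  rw [real_inner_comm u a]
  have h : 0 ≤ (s + 2) * inner ℝ u a * inner ℝ u a := by
    have := mul_self_nonneg (inner ℝ u a)
    nlinarith
  linarith

omit [FiniteDimensional ℝ E] in
lemma Tm_injective (s : ℝ) (hs : 0 < s) {u : E} (hu : ‖u‖ = 1) {a : E} (h : Tm s u a = 0) :
    a = 0 := by
  have h1 := Tm_inner s hu a
  rw [h, inner_zero_right] at h1
  have h2 : inner ℝ u a = 0 := by
    have : (s + 1) ≠ 0 := by positivity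
    have h3 : (s + 1) * inner ℝ u a = 0 := by linarith
    exact (mul_eq_zero.1 h3).resolve_left this
  rwa [Tm_of_inner_zero s h2] at h

/-- if `c T a = d a` with `d > c ≥ 0` then `a = 0` -/
lemma eq_zero_of_Tm {s : ℝ} (hs : 0 < s) {u a : E} {c d : ℝ} (hc : 0 ≤ c) (hcd : c < d)
    (h : c • Tm s u a = d • a) : a = 0 := by
  have h1 := congrArg (fun y => inner ℝ a y) h
  simp only [inner_smul_right, real_inner_self_eq_norm_sq] at h1
  have h2 := Tm_quad_le s hs u a
  have h3 : (d - c) * ‖a‖ ^ 2 ≤ 0 := by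
    have := mul_le_mul_of_nonneg_left h2 hc
    linarith
  have h4 : ‖a‖ ^ 2 ≤ 0 := by
    by_contra hcon
    push Not at hcon
    nlinarith
  have h5 : ‖a‖ = 0 := by
    have := sq_nonneg ‖a‖
    exact pow_eq_zero_iff (two_ne_zero) |>.1 (le_antisymm h4 this)
  exact norm_eq_zero.1 h5

lemma isInvertible_of_injective {F : Type*} [NormedAddCommGroup F] [NormedSpace ℝ F]
    [FiniteDimensional ℝ F] (A : F →L[ℝ] F) (h : ∀ x, A x = 0 → x = 0) : A.IsInvertible := by
  have hinj : Function.Injective (A : F →ₗ[ℝ] F) := by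
    rw [← LinearMap.ker_eq_bot, LinearMap.ker_eq_bot']
    exact h
  refine ⟨(LinearEquiv.ofInjectiveEndo (A : F →ₗ[ℝ] F) hinj).toContinuousLinearEquiv, ?_⟩
  ext x
  simp

lemma det_ne_zero_of_injective (A : E →L[ℝ] E) (h : ∀ x, A x = 0 → x = 0) : A.det ≠ 0 := by
  have hinj : Function.Injective (A : E →ₗ[ℝ] E) := by
    rw [← LinearMap.ker_eq_bot, LinearMap.ker_eq_bot']
    exact h
  have h1 : IsUnit (LinearMap.det (A : E →ₗ[ℝ] E)) := by
    have := (LinearEquiv.ofInjectiveEndo (A : E →ₗ[ℝ] E) hinj).isUnit_det'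
    exact this
  exact h1.ne_zero

theorem exists_charts {s κ θ : ℝ} (hs : 0 < s) (hθ : θ = (4 : ℝ) ^ (-(s + 2) / 2))
    (hθ0 : 0 < θ) (hθ1 : θ ≤ 1 / 4) (hκ : 8 ≤ κ) (hκθ : κ * θ = 2) {u : E} (hu : ‖u‖ = 1)
    {ε : ℝ} (hε : 0 < ε) :
    ∃ δ₀ > 0, δ₀ ≤ ε ∧ ∀ δ, 0 < δ → δ ≤ δ₀ → ∃ G H : OpenPartialHomeomorph E E,
      G.source = Metric.ball 0 δ ∧ H.source = Metric.ball 0 δ ∧ SmoothChart G ∧ SmoothChart H ∧
      ∀ x ∈ Metric.ball (0 : E) δ, ‖G x - u‖ < ε ∧ ‖H x + u‖ < ε ∧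
        Phi s κ θ u (x, (G x, H x)) = 0 := by
  have hder := Phi_hasStrictFDerivAt s κ θ hu
  have hcd := Phi_contDiffAt s κ θ hu
  have hbase : Phi s κ θ u (0, (u, -u)) = 0 := by rw [hθ]; exact Phi_base s κ hu
  have hfd : fderiv ℝ (Phi s κ θ u) (0, (u, -u)) = LPhi s κ u := hder.hasFDerivAt.fderiv
  have happ := fun ξ υ ζ => LPhi_apply s κ hu ξ υ ζ
  rw [← hθ] at happ
  have hinv : (fderiv ℝ (Phi s κ θ u) (0, (u, -u)) ∘L .inr ℝ E (E × E)).IsInvertible := by
    apply isInvertible_of_injective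
    rintro ⟨υ, ζ⟩ h
    rw [hfd] at h
    have h1 : LPhi s κ u (0, (υ, ζ)) = 0 := h
    rw [happ, Prod.mk_eq_zero] at h1
    obtain ⟨h2, h3⟩ := h1
    simp only [zero_sub, Tm_neg, smul_zero, sub_zero] at h2 h3
    have h4 : Tm s u (υ + ζ) = 0 := by
      rw [Tm_add]
      have : -(Tm s u υ + Tm s u ζ) = 0 := by rw [neg_add]; exact h2
      exact neg_eq_zero.1 this
    have h5 : υ + ζ = 0 := Tm_injective s hs hu h4
    have h6 : ζ = -υ := by rw [← add_eq_zero_iff_neg_eq.1 h5]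
    rw [h6, sub_neg_eq_add, Tm_add] at h3
    have h7 : (1 + 2 * θ) • Tm s u υ = (2 * κ) • υ := by
      rw [← sub_eq_zero]
      rw [← h3, smul_add, add_smul, one_smul, two_mul, add_smul]
    have h8 : υ = 0 := eq_zero_of_Tm hs (by linarith) (by linarith) h7
    rw [h6, h8]
    simp
  set ψ := hcd.implicitFunction (by simp) hinv with hψ
  have hψ0 : ψ 0 = (u, -u) := hcd.implicitFunction_apply_self (by simp) hinv
  have hψev : ∀ᶠ x in 𝓝 (0 : E), Phi s κ θ u (x, ψ x) = 0 := by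
    have := hcd.eventually_apply_implicitFunction (by simp) hinv
    simp only [hbase] at this
    exact this
  have hψc : ContDiffAt ℝ ω ψ 0 := hcd.contDiffAt_implicitFunction (by simp) hinv
  have hψd : HasFDerivAt ψ (fderiv ℝ ψ 0) 0 := (hψc.differentiableAt (by simp)).hasFDerivAt
  set D := fderiv ℝ ψ 0 with hD
  -- the linearised equation
  have hlin : ∀ ξ, LPhi s κ u (ξ, D ξ) = 0 := by
    have h1 : HasFDerivAt (fun x => Phi s κ θ u (x, ψ x))
        ((LPhi s κ u).comp ((ContinuousLinearMap.id ℝ E).prod D)) 0 := by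
      have h2 : HasFDerivAt (fun x => (x, ψ x)) ((ContinuousLinearMap.id ℝ E).prod D) 0 :=
        (hasFDerivAt_id (0 : E)).prodMk hψd
      have h3 : HasFDerivAt (Phi s κ θ u) (LPhi s κ u) ((fun x => (x, ψ x)) 0) := by
        simp only [hψ0]
        exact hder.hasFDerivAt
      exact h3.comp 0 h2
    have h4 : HasFDerivAt (fun x => Phi s κ θ u (x, ψ x)) (0 : E →L[ℝ] E × E) 0 :=
      (hasFDerivAt_const (0 : E × E) (0 : E)).congr_of_eventuallyEq hψev
    have h5 := h1.unique h4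
    intro ξ
    have := congrArg (fun A => A ξ) h5
    simpa using this
  have heq : ∀ ξ, Tm s u (ξ - (D ξ).1) + Tm s u (ξ - (D ξ).2) = (2 * κ) • ξ ∧
      Tm s u ((D ξ).1 - ξ) + θ • Tm s u ((D ξ).1 - (D ξ).2) = (2 * κ) • (D ξ).1 := by
    intro ξ
    have h1 := hlin ξ
    rw [← Prod.mk.eta (p := D ξ), happ, Prod.mk_eq_zero, sub_eq_zero, sub_eq_zero] at h1
    exact h1
  -- injectivity of the two components
  have hY : ∀ ξ, (D ξ).1 = 0 → ξ = 0 := by
    intro ξ h
    obtain ⟨h1, h2⟩ := heq ξ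
    rw [h] at h1 h2
    set ζ := (D ξ).2
    simp only [zero_sub, Tm_neg, smul_zero, sub_zero, smul_neg] at h1 h2
    have h3 : Tm s u (ξ + θ • ζ) = 0 := by
      rw [Tm_add, Tm_smul]
      have : -(Tm s u ξ + θ • Tm s u ζ) = 0 := by rw [neg_add]; exact h2
      exact neg_eq_zero.1 this
    have h4 := Tm_injective s hs hu h3
    have h5 : ξ = -(θ • ζ) := eq_neg_of_add_eq_zero_left h4
    rw [h5] at h1
    have h6 : (1 + 2 * θ) • Tm s u ζ = (2 * κ * θ) • ζ := by
      rw [Tm_neg, Tm_sub, Tm_neg, Tm_smul, smul_neg, smul_smul] at h1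
      have h7 := congrArg (fun y => -y) h1
      simp only [neg_neg] at h7
      rw [← h7, add_smul, one_smul, two_mul, add_smul]
      abel
    have h7 : ζ = 0 := eq_zero_of_Tm hs (by linarith) (by nlinarith) h6
    rw [h5, h7]
    simp
  have hZ : ∀ ξ, (D ξ).2 = 0 → ξ = 0 := by
    intro ξ h
    obtain ⟨h1, h2⟩ := heq ξ
    rw [h] at h1 h2
    set υ := (D ξ).1
    simp only [sub_zero] at h1 h2
    have e1 := congrArg (fun y => inner ℝ u y) h1
    have e2 := congrArg (fun y => inner ℝ u y) h2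
    simp only [inner_add_right, Tm_inner s hu, inner_smul_right, inner_sub_right] at e1 e2
    set a := inner ℝ u ξ
    set b := inner ℝ u υ
    have ha : a = 0 := by
      -- (s+1) b = (2 (s+1) + 2 κ) a, ((s+1)(1+θ)+2κ) b = (s+1) a
      have e3 : (s + 1) * b = (2 * (s + 1) + 2 * κ) * a := by linarith
      have e4 : ((s + 1) * (1 + θ) + 2 * κ) * b = (s + 1) * a := by linarith
      have e5 : (((s + 1) * (1 + θ) + 2 * κ) * (2 * (s + 1) + 2 * κ) - (s + 1) * (s + 1)) * a = 0 := by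
        linear_combination (s + 1) * e4 - ((s + 1) * (1 + θ) + 2 * κ) * e3
      have e6 : 0 < ((s + 1) * (1 + θ) + 2 * κ) * (2 * (s + 1) + 2 * κ) - (s + 1) * (s + 1) := by
        have p1 : 0 < s + 1 := by linarith
        have p2 : 0 < κ := by linarith
        nlinarith [mul_pos p1 p1, mul_pos p1 p2, mul_pos p2 p2, mul_pos (mul_pos p1 p1) hθ0,
          mul_pos (mul_pos p1 p2) hθ0]
      exact (mul_eq_zero.1 e5).resolve_left e6.ne'
    have hb : b = 0 := by
      have e3 : (s + 1) * b = (2 * (s + 1) + 2 * κ) * a := by linarith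
      rw [ha, mul_zero] at e3
      exact (mul_eq_zero.1 e3).resolve_left (by linarith)
    have t1 : Tm s u ξ = ξ := Tm_of_inner_zero s ha
    have t2 : Tm s u υ = υ := Tm_of_inner_zero s hb
    rw [Tm_sub, t1, t2] at h1
    rw [Tm_sub, t1, t2] at h2
    have e7 : υ = (2 - 2 * κ) • ξ := by
      rw [sub_smul, ← h1, two_smul]
      abel
    have e8 : (2 * κ - 1 - θ) • υ = -ξ := by
      rw [sub_smul, sub_smul, ← h2, one_smul]
      abel
    rw [e7, smul_smul] at e8
    have e9 : ((2 * κ - 1 - θ) * (2 - 2 * κ) + 1) • ξ = 0 := by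
      rw [add_smul, e8, one_smul]; abel
    have e10 : (2 * κ - 1 - θ) * (2 - 2 * κ) + 1 < 0 := by nlinarith
    exact (smul_eq_zero.1 e9).resolve_left e10.ne
  set g : E → E := fun x => (ψ x).1 with hg
  set h : E → E := fun x => (ψ x).2 with hh
  have hgc : ContDiffAt ℝ ω g 0 := hψc.fst
  have hhc : ContDiffAt ℝ ω h 0 := hψc.snd
  have hgd : fderiv ℝ g 0 = (ContinuousLinearMap.fst ℝ E E).comp D := hψd.fst.fderiv
  have hhd : fderiv ℝ h 0 = (ContinuousLinearMap.snd ℝ E E).comp D := hψd.snd.fderiv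
  have hgdet : (fderiv ℝ g 0).det ≠ 0 := by
    rw [hgd]; exact det_ne_zero_of_injective _ hY
  have hhdet : (fderiv ℝ h 0).det ≠ 0 := by
    rw [hhd]; exact det_ne_zero_of_injective _ hZ
  obtain ⟨δ₁, hδ₁, hG⟩ := exists_smoothChart hgc hgdet
  obtain ⟨δ₂, hδ₂, hH⟩ := exists_smoothChart hhc hhdet
  have hg0 : g 0 = u := by simp [hg, hψ0]
  have hh0 : h 0 = -u := by simp [hh, hψ0]
  have c1 : ∀ᶠ x in 𝓝 (0 : E), ‖g x - u‖ < ε := by
    have := hgc.continuousAt.eventually (Metric.ball_mem_nhds (g 0) hε)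
    filter_upwards [this] with x hx
    rwa [hg0, dist_eq_norm] at hx
  have c2 : ∀ᶠ x in 𝓝 (0 : E), ‖h x + u‖ < ε := by
    have := hhc.continuousAt.eventually (Metric.ball_mem_nhds (h 0) hε)
    filter_upwards [this] with x hx
    rwa [hh0, dist_eq_norm, sub_neg_eq_add] at hx
  obtain ⟨δ₃, hδ₃, hball⟩ := Metric.eventually_nhds_iff_ball.1 (c1.and (c2.and hψev))
  set δ₀ := min (min δ₁ δ₂) (min δ₃ ε) with hδ₀
  have hδ00 : 0 < δ₀ := lt_min (lt_min hδ₁ hδ₂) (lt_min hδ₃ hε)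
  refine ⟨δ₀, hδ00, (min_le_right _ _).trans (min_le_right _ _), fun δ hδ0 hδ => ?_⟩
  obtain ⟨eG, hG1, hG2, hG3⟩ := hG δ hδ0 (hδ.trans ((min_le_left _ _).trans (min_le_left _ _)))
  obtain ⟨eH, hH1, hH2, hH3⟩ := hH δ hδ0 (hδ.trans ((min_le_left _ _).trans (min_le_right _ _)))
  refine ⟨eG, eH, hG1, hH1, hG3, hH3, ?_⟩
  intro x hx
  have hx' : x ∈ Metric.ball (0 : E) δ₃ :=
    Metric.ball_subset_ball (hδ.trans ((min_le_right _ _).trans (min_le_left _ _))) hx
  obtain ⟨h1, h2, h3⟩ := hball x hx'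
  rw [hG2, hH2]
  exact ⟨h1, h2, h3⟩

end ift

end Crest.Agent.OT3
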