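import Mathlib
import Crest.Prelude.Def_MultiMarginal
import Crest.Agent.OT3.Charts
set_option autoImplicit false
set_option linter.unusedSectionVars false
open MeasureTheory ProbabilityTheory Filter Set
open scoped Topology ENNReal ContDiff
open Crest.AnalysisR.OT

namespace Crest.Agent.OT3

section tangent
variable {E : Type*} [NormedAddCommGroup E] [InnerProductSpace ℝ E]

/-- real pair interaction -/
noncomputable def ww (s : ℝ) (v : E) : ℝ := (‖v‖ ^ 2) ^ (-s / 2)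

lemma ww_neg (s : ℝ) (v : E) : ww s (-v) = ww s v := by simp [ww]

lemma ww_sub_comm (s : ℝ) (v w : E) : ww s (v - w) = ww s (w - v) := by
  rw [← ww_neg, neg_sub]

lemma ww_nonneg (s : ℝ) (v : E) : 0 ≤ ww s v := by unfold ww; positivity

lemma ww_eq (s : ℝ) (v : E) : ww s v = ‖v‖ ^ (-s) := by
  unfold ww
  rw [← Real.rpow_natCast, ← Real.rpow_mul (norm_nonneg v)]
  congr 1
  push_cast
  ring

lemma pairCost_eq (s : ℝ) {x y : E} (h : x ≠ y) :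
    pairCost s x y = ENNReal.ofReal (ww s (x - y)) := by
  have h1 : 0 < ‖x - y‖ := norm_pos_iff.2 (sub_ne_zero.2 h)
  unfold pairCost
  rw [ww_eq, ENNReal.ofReal_rpow_of_pos h1]

lemma pairCost_self {s : ℝ} (hs : 0 < s) (x : E) : pairCost s x x = ⊤ := by
  unfold pairCost
  rw [sub_self, norm_zero, ENNReal.ofReal_zero, ENNReal.zero_rpow_of_neg (by linarith)]

lemma ww_measurable [MeasurableSpace E] [BorelSpace E] (s : ℝ) : Measurable (ww s : E → ℝ) := by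
  unfold ww
  fun_prop

lemma rpow_tangent {a t t' : ℝ} (ha : 0 < a) (ht : 0 < t) (ht' : 0 < t') :
    t ^ (-a) - a * t ^ (-a - 1) * (t' - t) ≤ t' ^ (-a) := by
  have hr : 0 < t' / t := div_pos ht' ht
  have h1 : t' ^ (-a) = t ^ (-a) * (t' / t) ^ (-a) := by
    rw [← Real.mul_rpow ht.le hr.le]
    congr 1
    field_simp
  have h2 : 1 - a * (t' / t - 1) ≤ (t' / t) ^ (-a) := by
    rw [Real.rpow_def_of_pos hr]
    have h3 := Real.add_one_le_exp (Real.log (t' / t) * -a)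
    have h4 := Real.log_le_sub_one_of_pos hr
    nlinarith
  have h5 : 0 < t ^ (-a) := Real.rpow_pos_of_pos ht _
  rw [h1, Real.rpow_sub_one ht.ne']
  calc t ^ (-a) - a * (t ^ (-a) / t) * (t' - t) = t ^ (-a) * (1 - a * (t' / t - 1)) := by
        field_simp
    _ ≤ _ := by gcongr

lemma ww_tangent {s : ℝ} (hs : 0 < s) {v v' : E} (hv : v ≠ 0) (hv' : v' ≠ 0) :
    ww s v - s * inner ℝ (FF s v) (v' - v) - (s / 2) * (‖v‖ ^ 2) ^ (-(s + 2) / 2) * ‖v' - v‖ ^ 2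
      ≤ ww s v' := by
  have hp : 0 < ‖v‖ ^ 2 := by have := norm_pos_iff.2 hv; positivity
  have hp' : 0 < ‖v'‖ ^ 2 := by have := norm_pos_iff.2 hv'; positivity
  have h1 := rpow_tangent (a := s / 2) (by linarith) hp hp'
  have e1 : -(s / 2) = -s / 2 := by ring
  have e2 : -(s / 2) - 1 = -(s + 2) / 2 := by ring
  rw [e1] at h1
  have e2' : -s / 2 - 1 = -(s + 2) / 2 := by ring
  rw [e2'] at h1
  have e3 : ‖v'‖ ^ 2 - ‖v‖ ^ 2 = 2 * inner ℝ v (v' - v) + ‖v' - v‖ ^ 2 := by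
    have h4 : v' = v + (v' - v) := by abel
    conv_lhs => rw [h4]
    rw [norm_add_sq_real]
    ring
  rw [e3] at h1
  unfold ww FF
  rw [real_inner_smul_left]
  refine le_trans (le_of_eq ?_) h1
  ring

/-- real triple cost -/
noncomputable def CC (s : ℝ) (x y z : E) : ℝ := ww s (x - y) + ww s (x - z) + ww s (y - z)

lemma CC_nonneg (s : ℝ) (x y z : E) : 0 ≤ CC s x y z := by
  have h1 := ww_nonneg s (x - y)
  have h2 := ww_nonneg s (x - z)
  have h3 := ww_nonneg s (y - z)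
  unfold CC
  linarith

lemma CC_swap12 (s : ℝ) (x y z : E) : CC s y x z = CC s x y z := by
  unfold CC
  rw [ww_sub_comm s y x]
  ring

lemma CC_swap23 (s : ℝ) (x y z : E) : CC s x z y = CC s x y z := by
  unfold CC
  rw [ww_sub_comm s z y]
  ring

lemma tripleCost_eq (s : ℝ) {x y z : E} (h1 : x ≠ y) (h2 : x ≠ z) (h3 : y ≠ z) :
    tripleCost s (x, y, z) = ENNReal.ofReal (CC s x y z) := by
  unfold tripleCost CC
  simp only
  rw [pairCost_eq s h1, pairCost_eq s h2, pairCost_eq s h3,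
    ENNReal.ofReal_add (add_nonneg (ww_nonneg _ _) (ww_nonneg _ _)) (ww_nonneg _ _),
    ENNReal.ofReal_add (ww_nonneg _ _) (ww_nonneg _ _)]

lemma tripleCost_top {s : ℝ} (hs : 0 < s) {x y z : E} (h : ¬ (x ≠ y ∧ x ≠ z ∧ y ≠ z)) :
    tripleCost s (x, y, z) = ⊤ := by
  unfold tripleCost
  simp only
  by_cases h1 : x = y
  · rw [h1, pairCost_self hs]; simp
  · by_cases h2 : x = z
    · rw [h2, pairCost_self hs]; simp
    · have h3 : y = z := by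
        by_contra h3
        exact h ⟨h1, h2, h3⟩
      rw [h3, pairCost_self hs]; simp

/-- the potentials -/
noncomputable def pA (s κ α : ℝ) (x : E) : ℝ := α - s * κ * ‖x‖ ^ 2
noncomputable def pB (s κ θ : ℝ) (u y : E) : ℝ :=
  -(s * (1 + 2 * θ) * inner ℝ u (y - u)) - s * κ * ‖y - u‖ ^ 2

lemma pA_expand (s κ α : ℝ) (x x' : E) :
    pA s κ α x' = pA s κ α x - 2 * s * κ * inner ℝ x (x' - x) - s * κ * ‖x' - x‖ ^ 2 := by
  have h4 : x' = x + (x' - x) := by abel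
  have h5 : ‖x'‖ ^ 2 = ‖x‖ ^ 2 + 2 * inner ℝ x (x' - x) + ‖x' - x‖ ^ 2 := by
    conv_lhs => rw [h4]
    rw [norm_add_sq_real]
  unfold pA
  rw [h5]
  ring

lemma pB_expand (s κ θ : ℝ) (u y y' : E) :
    pB s κ θ u y' = pB s κ θ u y - s * (1 + 2 * θ) * inner ℝ u (y' - y)
      - 2 * s * κ * inner ℝ (y - u) (y' - y) - s * κ * ‖y' - y‖ ^ 2 := by
  have h4 : y' - u = (y - u) + (y' - y) := by abel
  have h5 : ‖y' - u‖ ^ 2 = ‖y - u‖ ^ 2 + 2 * inner ℝ (y - u) (y' - y) + ‖y' - y‖ ^ 2 := by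
    rw [h4, norm_add_sq_real]
  have h6 : inner ℝ u (y' - u) = inner ℝ u (y - u) + inner ℝ u (y' - y) := by
    rw [h4, inner_add_right]
  unfold pB
  rw [h5, h6]
  ring

lemma coef_le {s θ : ℝ} (hs : 0 < s) (hθ : θ = (4 : ℝ) ^ (-(s + 2) / 2)) {v : E} (hv : 1 / 2 ≤ ‖v‖) :
    (‖v‖ ^ 2) ^ (-(s + 2) / 2) ≤ 1 / θ := by
  have h1 : (1 / 4 : ℝ) ≤ ‖v‖ ^ 2 := by nlinarith
  have h2 : (‖v‖ ^ 2) ^ (-(s + 2) / 2) ≤ (1 / 4 : ℝ) ^ (-(s + 2) / 2) :=
    Real.rpow_le_rpow_of_nonpos (by norm_num) h1 (by linarith)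
  refine h2.trans (le_of_eq ?_)
  rw [hθ, Real.div_rpow (by norm_num) (by norm_num), Real.one_rpow]

theorem local_ineq {s κ θ α : ℝ} (hs : 0 < s) (hθ : θ = (4 : ℝ) ^ (-(s + 2) / 2)) (hθ0 : 0 < θ)
    (hκθ : κ * θ = 2) {u x y z : E} (hP : Phi s κ θ u (x, (y, z)) = 0)
    (hxy : 1 / 2 ≤ ‖x - y‖) (hxz : 1 / 2 ≤ ‖x - z‖) (hyz : 1 / 2 ≤ ‖y - z‖)
    {x' y' : E} (h1 : x' ≠ y') (h2 : x' ≠ z) (h3 : y' ≠ z) :
    CC s x y z - pA s κ α x - pB s κ θ u y + (s / (2 * θ)) * (‖x' - x‖ ^ 2 + ‖y' - y‖ ^ 2)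
      ≤ CC s x' y' z - pA s κ α x' - pB s κ θ u y' := by
  have nz : ∀ {v : E}, 1 / 2 ≤ ‖v‖ → v ≠ 0 := by
    intro v hv h0
    rw [h0, norm_zero] at hv
    norm_num at hv
  have t1 := ww_tangent hs (nz hxy) (sub_ne_zero.2 h1)
  have t2 := ww_tangent hs (nz hxz) (sub_ne_zero.2 h2)
  have t3 := ww_tangent hs (nz hyz) (sub_ne_zero.2 h3)
  have d1 : x' - y' - (x - y) = (x' - x) - (y' - y) := by abel
  have d2 : x' - z - (x - z) = x' - x := by abel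
  have d3 : y' - z - (y - z) = y' - y := by abel
  rw [d1] at t1
  rw [d2] at t2
  rw [d3] at t3
  set ξ := x' - x with hξ
  set υ := y' - y with hυ
  obtain ⟨P1, P2⟩ := Prod.mk_eq_zero.1 hP
  simp only at P1 P2
  have q1 : inner ℝ (FF s (x - y)) ξ + inner ℝ (FF s (x - z)) ξ = 2 * κ * inner ℝ x ξ := by
    have := congrArg (fun w => inner ℝ w ξ) P1
    simp only [inner_sub_left, inner_add_left, real_inner_smul_left, inner_zero_left] at this
    linarith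
  have q2 : -inner ℝ (FF s (x - y)) υ + inner ℝ (FF s (y - z)) υ
      = 2 * κ * inner ℝ (y - u) υ + (1 + 2 * θ) * inner ℝ u υ := by
    have := congrArg (fun w => inner ℝ w υ) P2
    have e : FF s (y - x) = - FF s (x - y) := by
      unfold FF
      rw [← smul_neg, neg_sub, norm_sub_rev]
    rw [e] at this
    simp only [inner_sub_left, inner_add_left, inner_neg_left, real_inner_smul_left,
      inner_zero_left] at this
    simp only [inner_sub_left]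
    linarith
  rw [inner_sub_right] at t1
  have c1 := coef_le hs hθ hxy
  have c2 := coef_le hs hθ hxz
  have c3 := coef_le hs hθ hyz
  have n0 : ‖ξ - υ‖ ^ 2 ≤ 2 * ‖ξ‖ ^ 2 + 2 * ‖υ‖ ^ 2 := by
    have h5 := norm_sub_le ξ υ
    have h6 := norm_nonneg (ξ - υ)
    nlinarith [sq_nonneg (‖ξ‖ - ‖υ‖)]
  have r1 : (s / 2) * (‖x - y‖ ^ 2) ^ (-(s + 2) / 2) * ‖ξ - υ‖ ^ 2
      ≤ (s / 2) * (1 / θ) * (2 * ‖ξ‖ ^ 2 + 2 * ‖υ‖ ^ 2) := by gcongr
  have r2 : (s / 2) * (‖x - z‖ ^ 2) ^ (-(s + 2) / 2) * ‖ξ‖ ^ 2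
      ≤ (s / 2) * (1 / θ) * ‖ξ‖ ^ 2 := by gcongr
  have r3 : (s / 2) * (‖y - z‖ ^ 2) ^ (-(s + 2) / 2) * ‖υ‖ ^ 2
      ≤ (s / 2) * (1 / θ) * ‖υ‖ ^ 2 := by gcongr
  have eA := pA_expand s κ α x x'
  have eB := pB_expand s κ θ u y y'
  rw [← hξ] at eA
  rw [← hυ] at eB
  have hk : κ = 2 * (1 / θ) := by field_simp; linarith
  have hk2 : s / (2 * θ) = (s / 2) * (1 / θ) := by field_simp
  rw [hk2]
  unfold CC
  rw [eA, eB]
  set T := 1 / θ with hT
  have hsκ : s * κ = 2 * (s * T) := by rw [hk]; ring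
  have m1 : s * (inner ℝ (FF s (x - y)) ξ + inner ℝ (FF s (x - z)) ξ) = s * (2 * κ * inner ℝ x ξ) := by
    rw [q1]
  have m2 : s * (-inner ℝ (FF s (x - y)) υ + inner ℝ (FF s (y - z)) υ)
      = s * (2 * κ * inner ℝ (y - u) υ + (1 + 2 * θ) * inner ℝ u υ) := by rw [q2]
  have m3 : s * κ * ‖ξ‖ ^ 2 = 2 * (s * T) * ‖ξ‖ ^ 2 := by rw [hsκ]
  have m4 : s * κ * ‖υ‖ ^ 2 = 2 * (s * T) * ‖υ‖ ^ 2 := by rw [hsκ]
  linarith

end tangent
end Crest.Agent.OT3
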