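import Mathlib
import Crest.Prelude.Def_MultiMarginal
import Crest.Agent.OT3.Potential
set_option autoImplicit false
set_option linter.unusedSectionVars false
open MeasureTheory ProbabilityTheory Filter Set
open scoped Topology ENNReal ContDiff
open Crest.AnalysisR.OT

namespace Crest.Agent.OT3

section geom
variable {E : Type*} [NormedAddCommGroup E] [InnerProductSpace ℝ E] [FiniteDimensional ℝ E]

/-- geometric data -/
structure Geom (E : Type*) [NormedAddCommGroup E] [InnerProductSpace ℝ E]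
    [FiniteDimensional ℝ E] where
  s : ℝ
  κ : ℝ
  θ : ℝ
  α : ℝ
  τ : ℝ
  ε : ℝ
  δ : ℝ
  r : ℝ
  u : Bool → E
  G : Bool → OpenPartialHomeomorph E E
  H : Bool → OpenPartialHomeomorph E E
  hs : 0 < s
  hθ : θ = (4 : ℝ) ^ (-(s + 2) / 2)
  hθ0 : 0 < θ
  hθ1 : θ ≤ 1 / 4
  hκ : 8 ≤ κ
  hκθ : κ * θ = 2
  hα : 0 < α
  hτ : 0 < τ
  hε : 0 < ε
  hε1 : ε ≤ 1 / 8
  hr : 0 < r
  hrδ : r < δ
  hδ : δ ≤ ε
  hu : ∀ i, ‖u i‖ = 1
  huo : inner ℝ (u false) (u true) = 0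
  sG : ∀ i, (G i).source = Metric.ball 0 δ
  sH : ∀ i, (H i).source = Metric.ball 0 δ
  cG : ∀ i, SmoothChart (G i)
  cH : ∀ i, SmoothChart (H i)
  nG : ∀ i, ∀ x ∈ Metric.ball (0 : E) δ, ‖G i x - u i‖ < ε
  nH : ∀ i, ∀ x ∈ Metric.ball (0 : E) δ, ‖H i x + u i‖ < ε
  hP : ∀ i, ∀ x ∈ Metric.ball (0 : E) δ, Phi s κ θ (u i) (x, (G i x, H i x)) = 0
  N1 : 2 * s * ε ≤ τ
  N2 : 2 * (1 - 2 * ε) ^ (-s) + (2 - 2 * ε) ^ (-s) + 2 * s * κ * ε ^ 2 + 2 * s * ε ≤ α + τ
  N3 : α + 2 * τ < 2 * (1 + 2 * ε) ^ (-s) + (√2 + 2 * ε) ^ (-s)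
  N4 : τ < (2 + 2 * ε) ^ (-s)
  N5 : 3 * (α + τ) < (2 * ε) ^ (-s)

namespace Geom
variable (D : Geom E)

/-- the central cluster -/
def A : Set E := Metric.closedBall 0 D.r
def BG (i : Bool) : Set E := D.G i '' D.A
def BH (i : Bool) : Set E := D.H i '' D.A

/-- labels of the clusters -/
def cen : Option (Bool × Bool) → E
  | none => 0
  | some (i, true) => D.u i
  | some (i, false) => - D.u i

def Cl : Option (Bool × Bool) → Set E
  | none => D.A
  | some (i, true) => D.BG i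
  | some (i, false) => D.BH i

lemma A_subset : D.A ⊆ Metric.ball 0 D.δ := Metric.closedBall_subset_ball D.hrδ

lemma Cl_near {ℓ : Option (Bool × Bool)} {p : E} (hp : p ∈ D.Cl ℓ) : ‖p - D.cen ℓ‖ < D.ε := by
  rcases ℓ with _ | ⟨i, b⟩
  · have h1 := D.A_subset hp
    rw [mem_ball_zero_iff] at h1
    simp only [cen, sub_zero]
    exact h1.trans_le D.hδ
  · cases b with
    | true =>
      obtain ⟨x, hx, rfl⟩ := hp
      exact D.nG i x (D.A_subset hx)
    | false =>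
      obtain ⟨x, hx, rfl⟩ := hp
      have := D.nH i x (D.A_subset hx)
      simpa [cen] using this

lemma inner_ne {i j : Bool} (h : i ≠ j) : inner ℝ (D.u i) (D.u j) = 0 := by
  have h1 := D.huo
  cases i <;> cases j
  · exact absurd rfl h
  · exact h1
  · rw [real_inner_comm]; exact h1
  · exact absurd rfl h

lemma u_dist (i j : Bool) (h : i ≠ j) (a b : ℝ) (ha : a ^ 2 = 1) (hb : b ^ 2 = 1) :
    ‖a • D.u i - b • D.u j‖ = √2 := by
  have h1 : ‖a • D.u i - b • D.u j‖ ^ 2 = 2 := by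
    rw [norm_sub_sq_real, real_inner_smul_left, real_inner_smul_right, D.inner_ne h, norm_smul,
      norm_smul, D.hu, D.hu, mul_one, mul_one, Real.norm_eq_abs, Real.norm_eq_abs, sq_abs, sq_abs,
      ha, hb]
    norm_num
  rw [← h1, Real.sqrt_sq (norm_nonneg _)]

lemma cen_cross {i j : Bool} (h : i ≠ j) (a b : Bool) :
    ‖D.cen (some (i, a)) - D.cen (some (j, b))‖ = √2 := by
  cases a <;> cases b
  · have := D.u_dist i j h (-1) (-1) (by norm_num) (by norm_num)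
    simpa [cen] using this
  · have := D.u_dist i j h (-1) 1 (by norm_num) (by norm_num)
    simpa [cen] using this
  · have := D.u_dist i j h 1 (-1) (by norm_num) (by norm_num)
    simpa [cen] using this
  · have := D.u_dist i j h 1 1 (by norm_num) (by norm_num)
    simpa [cen] using this

lemma cen_none (i a : Bool) : ‖D.cen none - D.cen (some (i, a))‖ = 1 := by
  cases a <;> simp [cen, D.hu]

lemma cen_anti (i : Bool) {a b : Bool} (h : a ≠ b) :
    ‖D.cen (some (i, a)) - D.cen (some (i, b))‖ = 2 := by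
  have h2 : ‖D.u i + D.u i‖ = 2 := by
    rw [← two_smul ℝ, norm_smul, D.hu]; norm_num
  cases a <;> cases b
  · exact absurd rfl h
  · have : - D.u i - D.u i = -(D.u i + D.u i) := by abel
    simp only [cen]
    rw [this, norm_neg, h2]
  · have : D.u i - - D.u i = (D.u i + D.u i) := by abel
    simp only [cen]
    rw [this, h2]
  · exact absurd rfl h

lemma cen_ge {ℓ ℓ' : Option (Bool × Bool)} (h : ℓ ≠ ℓ') : 1 ≤ ‖D.cen ℓ - D.cen ℓ'‖ := by
  have h2 : (1 : ℝ) ≤ √2 := by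
    rw [Real.one_le_sqrt]; norm_num
  rcases ℓ with _ | ⟨i, a⟩ <;> rcases ℓ' with _ | ⟨j, b⟩
  · exact absurd rfl h
  · rw [D.cen_none]
  · rw [norm_sub_rev, D.cen_none]
  · by_cases hij : i = j
    · subst hij
      have hab : a ≠ b := fun h' => h (by rw [h'])
      rw [D.cen_anti i hab]; norm_num
    · rw [D.cen_cross hij]; exact h2

lemma cen_le (ℓ ℓ' : Option (Bool × Bool)) : ‖D.cen ℓ - D.cen ℓ'‖ ≤ 2 := by
  have h2 : √2 ≤ 2 := by
    rw [Real.sqrt_le_left (by norm_num)]; norm_num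
  rcases ℓ with _ | ⟨i, a⟩ <;> rcases ℓ' with _ | ⟨j, b⟩
  · simp
  · rw [D.cen_none]; norm_num
  · rw [norm_sub_rev, D.cen_none]; norm_num
  · by_cases hij : i = j
    · subst hij
      by_cases hab : a = b
      · rw [hab]; simp
      · rw [D.cen_anti i hab]
    · rw [D.cen_cross hij]; exact h2

lemma dist_le {ℓ ℓ' : Option (Bool × Bool)} {p q : E} (hp : p ∈ D.Cl ℓ) (hq : q ∈ D.Cl ℓ') :
    ‖p - q‖ ≤ ‖D.cen ℓ - D.cen ℓ'‖ + 2 * D.ε := by
  have h1 := D.Cl_near hp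
  have h2 := D.Cl_near hq
  have e : p - q = (D.cen ℓ - D.cen ℓ') + ((p - D.cen ℓ) - (q - D.cen ℓ')) := by abel
  rw [e]
  have h3 := norm_add_le (D.cen ℓ - D.cen ℓ') ((p - D.cen ℓ) - (q - D.cen ℓ'))
  have h4 := norm_sub_le (p - D.cen ℓ) (q - D.cen ℓ')
  linarith

lemma dist_ge {ℓ ℓ' : Option (Bool × Bool)} {p q : E} (hp : p ∈ D.Cl ℓ) (hq : q ∈ D.Cl ℓ') :
    ‖D.cen ℓ - D.cen ℓ'‖ - 2 * D.ε ≤ ‖p - q‖ := by
  have h1 := D.Cl_near hp
  have h2 := D.Cl_near hq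
  have e : D.cen ℓ - D.cen ℓ' = (p - q) - ((p - D.cen ℓ) - (q - D.cen ℓ')) := by abel
  rw [e]
  have h3 := norm_sub_le (p - q) ((p - D.cen ℓ) - (q - D.cen ℓ'))
  have h4 := norm_sub_le (p - D.cen ℓ) (q - D.cen ℓ')
  linarith

lemma dist_half {ℓ ℓ' : Option (Bool × Bool)} (h : ℓ ≠ ℓ') {p q : E} (hp : p ∈ D.Cl ℓ)
    (hq : q ∈ D.Cl ℓ') : 1 / 2 ≤ ‖p - q‖ := by
  have h1 := D.dist_ge hp hq
  have h2 := D.cen_ge h
  have h3 := D.hε1
  linarith

lemma Cl_disj {ℓ ℓ' : Option (Bool × Bool)} {p : E} (hp : p ∈ D.Cl ℓ) (hq : p ∈ D.Cl ℓ') :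
    ℓ = ℓ' := by
  by_contra h
  have := D.dist_half h hp hq
  rw [sub_self, norm_zero] at this
  norm_num at this

/-- lower bound for the pair interaction -/
lemma ww_lower {ℓ ℓ' : Option (Bool × Bool)} {p q : E} (hp : p ∈ D.Cl ℓ) (hq : q ∈ D.Cl ℓ')
    (hpq : p ≠ q) : (‖D.cen ℓ - D.cen ℓ'‖ + 2 * D.ε) ^ (-D.s) ≤ ww D.s (p - q) := by
  rw [ww_eq]
  exact Real.rpow_le_rpow_of_nonpos (norm_pos_iff.2 (sub_ne_zero.2 hpq)) (D.dist_le hp hq)
    (by have := D.hs; linarith)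

lemma ww_upper {ℓ ℓ' : Option (Bool × Bool)} (h : ℓ ≠ ℓ') {p q : E} (hp : p ∈ D.Cl ℓ)
    (hq : q ∈ D.Cl ℓ') : ww D.s (p - q) ≤ (‖D.cen ℓ - D.cen ℓ'‖ - 2 * D.ε) ^ (-D.s) := by
  rw [ww_eq]
  have h2 := D.cen_ge h
  have h3 := D.hε1
  exact Real.rpow_le_rpow_of_nonpos (by linarith) (D.dist_ge hp hq)
    (by have := D.hs; linarith)

lemma ww_gt_tau {ℓ ℓ' : Option (Bool × Bool)} {p q : E} (hp : p ∈ D.Cl ℓ) (hq : q ∈ D.Cl ℓ')
    (hpq : p ≠ q) : D.τ < ww D.s (p - q) := by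
  refine lt_of_lt_of_le ?_ (D.ww_lower hp hq hpq)
  refine lt_of_lt_of_le D.N4 ?_
  have h1 := D.cen_le ℓ ℓ'
  have h2 := D.hε
  have h3 := norm_nonneg (D.cen ℓ - D.cen ℓ')
  exact Real.rpow_le_rpow_of_nonpos (by linarith) (by linarith) (by have := D.hs; linarith)

lemma ww_same {ℓ : Option (Bool × Bool)} {p q : E} (hp : p ∈ D.Cl ℓ) (hq : q ∈ D.Cl ℓ)
    (hpq : p ≠ q) : 3 * (D.α + D.τ) < ww D.s (p - q) := by
  refine lt_of_lt_of_le ?_ (D.ww_lower hp hq hpq)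
  rw [sub_self, norm_zero, zero_add]
  exact D.N5

/-! measurable versions of the charts -/

open Classical in
noncomputable def g (i : Bool) : E → E := (Metric.ball (0 : E) D.δ).piecewise (D.G i) (fun _ => 0)
open Classical in
noncomputable def h (i : Bool) : E → E := (Metric.ball (0 : E) D.δ).piecewise (D.H i) (fun _ => 0)
open Classical in
noncomputable def kg (i : Bool) : E → E := (D.G i).target.piecewise (D.G i).symm (fun _ => 0)
open Classical in
noncomputable def kh (i : Bool) : E → E := (D.H i).target.piecewise (D.H i).symm (fun _ => 0)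

lemma g_eq (i : Bool) {x : E} (hx : x ∈ D.A) : D.g i x = D.G i x := by
  classical
  exact Set.piecewise_eq_of_mem _ _ _ (D.A_subset hx)
lemma h_eq (i : Bool) {x : E} (hx : x ∈ D.A) : D.h i x = D.H i x := by
  classical
  exact Set.piecewise_eq_of_mem _ _ _ (D.A_subset hx)
lemma kg_eq (i : Bool) {x : E} (hx : x ∈ (D.G i).target) : D.kg i x = (D.G i).symm x := by
  classical
  exact Set.piecewise_eq_of_mem _ _ _ hx
lemma kh_eq (i : Bool) {x : E} (hx : x ∈ (D.H i).target) : D.kh i x = (D.H i).symm x := by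
  classical
  exact Set.piecewise_eq_of_mem _ _ _ hx

lemma lg (i : Bool) {x : E} (hx : x ∈ D.A) : D.kg i (D.g i x) = x := by
  have hx' : x ∈ (D.G i).source := by rw [D.sG]; exact D.A_subset hx
  rw [D.g_eq i hx, D.kg_eq i ((D.G i).map_source hx'), (D.G i).left_inv hx']

lemma lh (i : Bool) {x : E} (hx : x ∈ D.A) : D.kh i (D.h i x) = x := by
  have hx' : x ∈ (D.H i).source := by rw [D.sH]; exact D.A_subset hx
  rw [D.h_eq i hx, D.kh_eq i ((D.H i).map_source hx'), (D.H i).left_inv hx']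

/-- third potential -/
noncomputable def uC (i : Bool) (z : E) : ℝ :=
  CC D.s (D.kh i z) (D.g i (D.kh i z)) z - pA D.s D.κ D.α (D.kh i z)
    - pB D.s D.κ D.θ (D.u i) (D.g i (D.kh i z))

lemma uC_h (i : Bool) {x : E} (hx : x ∈ D.A) : D.uC i (D.h i x) =
    CC D.s x (D.g i x) (D.h i x) - pA D.s D.κ D.α x - pB D.s D.κ D.θ (D.u i) (D.g i x) := by
  unfold uC
  rw [D.lh i hx]

noncomputable def UL : Option (Bool × Bool) → E → ℝ
  | none => pA D.s D.κ D.α
  | some (i, true) => pB D.s D.κ D.θ (D.u i)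
  | some (i, false) => D.uC i

open Classical in
noncomputable def U (p : E) : ℝ :=
  if p ∈ D.A then D.UL none p else if p ∈ D.BG false then D.UL (some (false, true)) p
    else if p ∈ D.BG true then D.UL (some (true, true)) p
    else if p ∈ D.BH false then D.UL (some (false, false)) p
    else if p ∈ D.BH true then D.UL (some (true, false)) p else 0

lemma U_eq {ℓ : Option (Bool × Bool)} {p : E} (hp : p ∈ D.Cl ℓ) : D.U p = D.UL ℓ p := by
  have hn : ∀ ℓ', ℓ' ≠ ℓ → p ∉ D.Cl ℓ' := fun ℓ' h h' => h (D.Cl_disj h' hp)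
  have k0 := hn none
  have k1 := hn (some (false, true))
  have k2 := hn (some (true, true))
  have k3 := hn (some (false, false))
  have k4 := hn (some (true, false))
  simp only [Cl] at k0 k1 k2 k3 k4
  rcases ℓ with _ | ⟨i, b⟩
  · have hp' : p ∈ D.A := hp
    simp only [U, hp', if_true]
  · cases i <;> cases b
    · have hp' : p ∈ D.BH false := hp
      simp only [U, k0 (by simp), k1 (by simp), k2 (by simp), hp', if_true, if_false]
    · have hp' : p ∈ D.BG false := hp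
      simp only [U, k0 (by simp), hp', if_true, if_false]
    · have hp' : p ∈ D.BH true := hp
      simp only [U, k0 (by simp), k1 (by simp), k2 (by simp), k3 (by simp), hp', if_true, if_false]
    · have hp' : p ∈ D.BG true := hp
      simp only [U, k0 (by simp), k1 (by simp), hp', if_true, if_false]

lemma pA_le {x : E} : pA D.s D.κ D.α x ≤ D.α := by
  have h1 := D.hs
  have h2 := D.hκ
  unfold pA
  have : 0 ≤ D.s * D.κ * ‖x‖ ^ 2 := by positivity
  linarith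

lemma pA_ge {x : E} (hx : x ∈ D.A) : D.α - D.s * D.κ * D.ε ^ 2 ≤ pA D.s D.κ D.α x := by
  have h1 := D.hs
  have h2 := D.hκ
  have h3 : ‖x‖ < D.ε := by
    have := D.Cl_near (ℓ := none) hx
    simpa [cen] using this
  unfold pA
  have h4 : ‖x‖ ^ 2 ≤ D.ε ^ 2 := by
    have := norm_nonneg x
    gcongr
  have : D.s * D.κ * ‖x‖ ^ 2 ≤ D.s * D.κ * D.ε ^ 2 := by gcongr
  linarith

lemma pB_abs (i : Bool) {y : E} (hy : y ∈ D.BG i) :
    |D.s * (1 + 2 * D.θ) * inner ℝ (D.u i) (y - D.u i)| ≤ 2 * D.s * D.ε := by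
  have h1 := D.hs
  have h2 := D.hκ
  have h3 : ‖y - D.u i‖ < D.ε := D.Cl_near (ℓ := some (i, true)) hy
  have h4 := abs_real_inner_le_norm (D.u i) (y - D.u i)
  rw [D.hu, one_mul] at h4
  have h5 := D.hθ0
  have h6 := D.hθ1
  rw [abs_mul, abs_of_nonneg (by positivity)]
  have h7 : 0 ≤ |inner ℝ (D.u i) (y - D.u i)| := abs_nonneg _
  calc D.s * (1 + 2 * D.θ) * |inner ℝ (D.u i) (y - D.u i)| ≤ D.s * 2 * D.ε := by
        gcongr
        · linarith
        · linarith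
    _ = _ := by ring

lemma pB_le (i : Bool) {y : E} (hy : y ∈ D.BG i) : pB D.s D.κ D.θ (D.u i) y ≤ D.τ := by
  have h0 := (abs_le.1 (D.pB_abs i hy)).1
  have h1 := D.hs
  have h2 := D.hκ
  have h3 := D.N1
  have : 0 ≤ D.s * D.κ * ‖y - D.u i‖ ^ 2 := by positivity
  unfold pB
  linarith

lemma pB_ge (i : Bool) {y : E} (hy : y ∈ D.BG i) :
    - (2 * D.s * D.ε) - D.s * D.κ * D.ε ^ 2 ≤ pB D.s D.κ D.θ (D.u i) y := by
  have h0 := (abs_le.1 (D.pB_abs i hy)).2
  have h1 := D.hs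
  have h2 := D.hκ
  have h3 : ‖y - D.u i‖ < D.ε := D.Cl_near (ℓ := some (i, true)) hy
  have h4 : ‖y - D.u i‖ ^ 2 ≤ D.ε ^ 2 := by
    have := norm_nonneg (y - D.u i)
    gcongr
  have : D.s * D.κ * ‖y - D.u i‖ ^ 2 ≤ D.s * D.κ * D.ε ^ 2 := by gcongr
  unfold pB
  linarith

lemma mg (i : Bool) {x : E} (hx : x ∈ D.A) : D.g i x ∈ D.BG i := by
  rw [D.g_eq i hx]; exact ⟨x, hx, rfl⟩
lemma mh (i : Bool) {x : E} (hx : x ∈ D.A) : D.h i x ∈ D.BH i := by
  rw [D.h_eq i hx]; exact ⟨x, hx, rfl⟩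

lemma BG_exists {i : Bool} {y : E} (hy : y ∈ D.BG i) : ∃ x ∈ D.A, D.g i x = y := by
  obtain ⟨x, hx, rfl⟩ := hy
  exact ⟨x, hx, D.g_eq i hx⟩

lemma BH_exists {i : Bool} {y : E} (hy : y ∈ D.BH i) : ∃ x ∈ D.A, D.h i x = y := by
  obtain ⟨x, hx, rfl⟩ := hy
  exact ⟨x, hx, D.h_eq i hx⟩

lemma uC_le (i : Bool) {z : E} (hz : z ∈ D.BH i) : D.uC i z ≤ D.τ := by
  obtain ⟨x, hx, rfl⟩ := D.BH_exists hz
  rw [D.uC_h i hx]
  have h1 := D.pA_ge hx
  have h2 := D.pB_ge i (D.mg i hx)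
  have h3 := D.ww_upper (ℓ := none) (ℓ' := some (i, true)) (by simp) hx (D.mg i hx)
  have h4 := D.ww_upper (ℓ := none) (ℓ' := some (i, false)) (by simp) hx (D.mh i hx)
  have h5 := D.ww_upper (ℓ := some (i, true)) (ℓ' := some (i, false)) (by simp) (D.mg i hx)
    (D.mh i hx)
  rw [D.cen_none] at h3 h4
  rw [D.cen_anti i (by simp)] at h5
  have h6 := D.N2
  unfold CC
  linarith

lemma uC_ge (i : Bool) {z : E} (hz : z ∈ D.BH i) : - D.α - D.τ ≤ D.uC i z := by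
  obtain ⟨x, hx, rfl⟩ := D.BH_exists hz
  rw [D.uC_h i hx]
  have h1 := D.pA_le (x := x)
  have h2 := D.pB_le i (D.mg i hx)
  have h3 := CC_nonneg D.s x (D.g i x) (D.h i x)
  linarith

lemma U_le_tau {p : E} {q : Bool × Bool} (hp : p ∈ D.Cl (some q)) : D.U p ≤ D.τ := by
  rw [D.U_eq hp]
  obtain ⟨i, b⟩ := q
  cases b with
  | true => exact D.pB_le i hp
  | false => exact D.uC_le i hp

lemma U_le {ℓ : Option (Bool × Bool)} {p : E} (hp : p ∈ D.Cl ℓ) : D.U p ≤ D.α + D.τ := by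
  have h1 := D.hα
  have h2 := D.hτ
  rcases ℓ with _ | q
  · rw [D.U_eq hp]
    have := D.pA_le (x := p)
    simp only [UL]
    linarith
  · have := D.U_le_tau hp
    linarith

lemma U_le_alpha {p : E} (hp : p ∈ D.A) : D.U p ≤ D.α := by
  rw [D.U_eq (ℓ := none) hp]
  exact D.pA_le

/-- main inequality for a matched pair -/
lemma core_match (i : Bool) {p q r : E} (hp : p ∈ D.A) (hq : q ∈ D.BG i) (hr : r ∈ D.BH i) :
    D.U p + D.U q + D.U r ≤ CC D.s p q r ∧ (CC D.s p q r ≤ D.U p + D.U q + D.U r →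
      ∃ x ∈ D.A, p = x ∧ q = D.g i x ∧ r = D.h i x) := by
  rw [D.U_eq (ℓ := none) hp, D.U_eq (ℓ := some (i, true)) hq, D.U_eq (ℓ := some (i, false)) hr]
  simp only [UL]
  obtain ⟨x, hx, rfl⟩ := D.BH_exists hr
  rw [D.uC_h i hx]
  have hP := D.hP i x (D.A_subset hx)
  rw [← D.g_eq i hx, ← D.h_eq i hx] at hP
  have d1 := D.dist_half (ℓ := none) (ℓ' := some (i, true)) (by simp) hx (D.mg i hx)
  have d2 := D.dist_half (ℓ := none) (ℓ' := some (i, false)) (by simp) hx (D.mh i hx)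
  have d3 := D.dist_half (ℓ := some (i, true)) (ℓ' := some (i, false)) (by simp) (D.mg i hx)
    (D.mh i hx)
  have ne : ∀ {v w : E}, 1 / 2 ≤ ‖v - w‖ → v ≠ w := by
    intro v w h h'
    rw [h', sub_self, norm_zero] at h
    norm_num at h
  have d4 := ne (D.dist_half (ℓ := none) (ℓ' := some (i, true)) (by simp) hp hq)
  have d5 := ne (D.dist_half (ℓ := none) (ℓ' := some (i, false)) (by simp) hp hr)
  have d6 := ne (D.dist_half (ℓ := some (i, true)) (ℓ' := some (i, false)) (by simp) hq hr)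
  have main := local_ineq (α := D.α) D.hs D.hθ D.hθ0 D.hκθ hP d1 d2 d3 d4 d5 d6
  have hs := D.hs
  have hθ0 := D.hθ0
  have c0 : 0 < D.s / (2 * D.θ) := by positivity
  have n1 := sq_nonneg ‖p - x‖
  have n2 := sq_nonneg ‖q - D.g i x‖
  have n3 := mul_nonneg c0.le (add_nonneg n1 n2)
  refine ⟨by linarith, fun hle => ⟨x, hx, ?_⟩⟩
  have n4 : D.s / (2 * D.θ) * (‖p - x‖ ^ 2 + ‖q - D.g i x‖ ^ 2) ≤ 0 := by linarith
  have n5 : ‖p - x‖ ^ 2 + ‖q - D.g i x‖ ^ 2 ≤ 0 := by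
    by_contra hcon
    push Not at hcon
    have := mul_pos c0 hcon
    linarith
  have n6 : ‖p - x‖ ^ 2 = 0 := by linarith
  have n7 : ‖q - D.g i x‖ ^ 2 = 0 := by linarith
  have n8 : ‖p - x‖ = 0 := by simpa using n6
  have n9 : ‖q - D.g i x‖ = 0 := by simpa using n7
  exact ⟨sub_eq_zero.1 (norm_eq_zero.1 n8), sub_eq_zero.1 (norm_eq_zero.1 n9), rfl⟩

/-- inequality when the first point is central and the others are outer -/
lemma core {p q r : E} {a b : Bool × Bool} (hp : p ∈ D.A) (hq : q ∈ D.Cl (some a))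
    (hr : r ∈ D.Cl (some b)) (hab : a ≠ b) (h1 : p ≠ q) (h2 : p ≠ r) (h3 : q ≠ r) :
    D.U p + D.U q + D.U r ≤ CC D.s p q r ∧ (CC D.s p q r ≤ D.U p + D.U q + D.U r →
      ∃ i, ∃ x ∈ D.A, p = x ∧ ((q = D.g i x ∧ r = D.h i x) ∨ (q = D.h i x ∧ r = D.g i x))) := by
  obtain ⟨i, a⟩ := a
  obtain ⟨j, b⟩ := b
  by_cases hij : i = j
  · subst hij
    have hab' : a ≠ b := fun h => hab (by rw [h])
    cases a <;> cases b
    · exact absurd rfl hab'
    · obtain ⟨k1, k2⟩ := D.core_match i hp hr hq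
      rw [CC_swap23] at k1 k2
      refine ⟨by linarith, fun h => ?_⟩
      obtain ⟨x, hx, e1, e2, e3⟩ := k2 (by linarith)
      exact ⟨i, x, hx, e1, Or.inr ⟨e3, e2⟩⟩
    · obtain ⟨k1, k2⟩ := D.core_match i hp hq hr
      refine ⟨k1, fun h => ?_⟩
      obtain ⟨x, hx, e1, e2, e3⟩ := k2 h
      exact ⟨i, x, hx, e1, Or.inl ⟨e2, e3⟩⟩
    · exact absurd rfl hab'
  · have e1 := D.ww_lower (ℓ := none) hp hq h1
    have e2 := D.ww_lower (ℓ := none) hp hr h2
    have e3 := D.ww_lower hq hr h3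
    rw [D.cen_none] at e1 e2
    rw [D.cen_cross hij] at e3
    have f1 := D.U_le_alpha hp
    have f2 := D.U_le_tau hq
    have f3 := D.U_le_tau hr
    have f4 := D.N3
    have key : D.U p + D.U q + D.U r < CC D.s p q r := by
      unfold CC
      linarith
    exact ⟨key.le, fun h => absurd h (not_le.2 key)⟩

theorem H12 {p q r : E} {a b c : Option (Bool × Bool)} (hp : p ∈ D.Cl a) (hq : q ∈ D.Cl b)
    (hr : r ∈ D.Cl c) (h1 : p ≠ q) (h2 : p ≠ r) (h3 : q ≠ r) :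
    D.U p + D.U q + D.U r ≤ CC D.s p q r ∧ (CC D.s p q r ≤ D.U p + D.U q + D.U r →
    ∃ i, ∃ x ∈ D.A, (p = x ∧ q = D.g i x ∧ r = D.h i x) ∨ (p = x ∧ q = D.h i x ∧ r = D.g i x) ∨
      (p = D.g i x ∧ q = x ∧ r = D.h i x) ∨ (p = D.g i x ∧ q = D.h i x ∧ r = x) ∨
      (p = D.h i x ∧ q = x ∧ r = D.g i x) ∨ (p = D.h i x ∧ q = D.g i x ∧ r = x)) := by
  have strict : D.U p + D.U q + D.U r < CC D.s p q r →
    D.U p + D.U q + D.U r ≤ CC D.s p q r ∧ (CC D.s p q r ≤ D.U p + D.U q + D.U r →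
    ∃ i, ∃ x ∈ D.A, (p = x ∧ q = D.g i x ∧ r = D.h i x) ∨ (p = x ∧ q = D.h i x ∧ r = D.g i x) ∨
      (p = D.g i x ∧ q = x ∧ r = D.h i x) ∨ (p = D.g i x ∧ q = D.h i x ∧ r = x) ∨
      (p = D.h i x ∧ q = x ∧ r = D.g i x) ∨ (p = D.h i x ∧ q = D.g i x ∧ r = x)) :=
    fun key => ⟨key.le, fun h => absurd h (not_le.2 key)⟩
  have u1 := D.U_le hp
  have u2 := D.U_le hq
  have u3 := D.U_le hr
  have w1 := ww_nonneg D.s (p - q)
  have w2 := ww_nonneg D.s (p - r)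
  have w3 := ww_nonneg D.s (q - r)
  by_cases hab : a = b
  · subst hab
    apply strict
    have := D.ww_same hp hq h1
    unfold CC
    linarith
  by_cases hac : a = c
  · subst hac
    apply strict
    have := D.ww_same hp hr h2
    unfold CC
    linarith
  by_cases hbc : b = c
  · subst hbc
    apply strict
    have := D.ww_same hq hr h3
    unfold CC
    linarith
  rcases a with _ | a
  · rcases b with _ | b
    · exact absurd rfl hab
    rcases c with _ | c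
    · exact absurd rfl hac
    obtain ⟨k1, k2⟩ := D.core hp hq hr (fun h => hbc (by rw [h])) h1 h2 h3
    refine ⟨k1, fun h => ?_⟩
    obtain ⟨i, x, hx, e1, e2 | e2⟩ := k2 h
    · exact ⟨i, x, hx, Or.inl ⟨e1, e2⟩⟩
    · exact ⟨i, x, hx, Or.inr (Or.inl ⟨e1, e2⟩)⟩
  · rcases b with _ | b
    · rcases c with _ | c
      · exact absurd rfl hbc
      obtain ⟨k1, k2⟩ := D.core hq hp hr (fun h => hac (by rw [h])) h1.symm h3 h2
      rw [CC_swap12] at k1 k2
      refine ⟨by linarith, fun h => ?_⟩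
      obtain ⟨i, x, hx, e1, e2 | e2⟩ := k2 (by linarith)
      · exact ⟨i, x, hx, Or.inr (Or.inr (Or.inl ⟨e2.1, e1, e2.2⟩))⟩
      · exact ⟨i, x, hx, Or.inr (Or.inr (Or.inr (Or.inr (Or.inl ⟨e2.1, e1, e2.2⟩))))⟩
    · rcases c with _ | c
      · obtain ⟨k1, k2⟩ := D.core hr hp hq (fun h => hab (by rw [h])) h2.symm h3.symm h1
        rw [CC_swap12, CC_swap23] at k1 k2
        refine ⟨by linarith, fun h => ?_⟩
        obtain ⟨i, x, hx, e1, e2 | e2⟩ := k2 (by linarith)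
        · exact ⟨i, x, hx, Or.inr (Or.inr (Or.inr (Or.inl ⟨e2.1, e2.2, e1⟩)))⟩
        · exact ⟨i, x, hx, Or.inr (Or.inr (Or.inr (Or.inr (Or.inr ⟨e2.1, e2.2, e1⟩))))⟩
      · apply strict
        have v1 := D.U_le_tau hp
        have v2 := D.U_le_tau hq
        have v3 := D.U_le_tau hr
        have g1 := D.ww_gt_tau hp hq h1
        have g2 := D.ww_gt_tau hp hr h2
        have g3 := D.ww_gt_tau hq hr h3
        unfold CC
        linarith

end Geom
end geom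
end Crest.Agent.OT3
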