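import Mathlib
import Crest.Prelude.Def_MultiMarginal
import Crest.Agent.OT3.Geometry
import Crest.Agent.OT3.Approx
set_option autoImplicit false
set_option linter.unusedSectionVars false
open MeasureTheory ProbabilityTheory Filter Set
open scoped Topology ENNReal ContDiff
open Crest.AnalysisR.OT

namespace Crest.Agent.OT3

section density
variable {E : Type*} [NormedAddCommGroup E] [InnerProductSpace ℝ E] [FiniteDimensional ℝ E]

lemma ww_lip {s θ : ℝ} (hs : 0 < s) (hθ : θ = (4 : ℝ) ^ (-(s + 2) / 2)) (hθ0 : 0 < θ) {v v' : E}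
    (hv : 1 / 2 ≤ ‖v‖) (hv' : 1 / 2 ≤ ‖v'‖) (hv3 : ‖v‖ ≤ 3) (h1 : ‖v' - v‖ ≤ 1) :
    ww s v ≤ ww s v' + 4 * s / θ * ‖v' - v‖ := by
  have nz : ∀ {v : E}, 1 / 2 ≤ ‖v‖ → v ≠ 0 := by
    intro v hv h0
    rw [h0, norm_zero] at hv
    norm_num at hv
  have t := ww_tangent hs (nz hv) (nz hv')
  have c := coef_le hs hθ hv
  set a := (‖v‖ ^ 2) ^ (-(s + 2) / 2) with ha
  have ha0 : 0 ≤ a := by positivity
  have hF : FF s v = a • v := rfl
  rw [hF, real_inner_smul_left] at t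
  have i1 : inner ℝ v (v' - v) ≤ ‖v‖ * ‖v' - v‖ := real_inner_le_norm _ _
  have n0 := norm_nonneg (v' - v)
  have k1 : s * (a * inner ℝ v (v' - v)) ≤ s * ((1 / θ) * (3 * ‖v' - v‖)) := by
    have : a * inner ℝ v (v' - v) ≤ (1 / θ) * (3 * ‖v' - v‖) := by
      calc a * inner ℝ v (v' - v) ≤ a * (‖v‖ * ‖v' - v‖) := by gcongr
        _ ≤ (1 / θ) * (3 * ‖v' - v‖) := by gcongr
    gcongr
  have k2 : s / 2 * a * ‖v' - v‖ ^ 2 ≤ s / 2 * (1 / θ) * ‖v' - v‖ := by
    have : ‖v' - v‖ ^ 2 ≤ ‖v' - v‖ := by nlinarith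
    gcongr
  have k3 : 0 ≤ s * (1 / θ) * ‖v' - v‖ := by positivity
  have e : 4 * s / θ * ‖v' - v‖ = 4 * (s * (1 / θ) * ‖v' - v‖) := by ring
  rw [e]
  nlinarith

variable [MeasurableSpace E] [BorelSpace E]

namespace Geom
variable (D : Geom E)

lemma A_meas : MeasurableSet D.A := measurableSet_closedBall
lemma A_compact : IsCompact D.A := isCompact_closedBall _ _
lemma BG_compact (i : Bool) : IsCompact (D.BG i) :=
  D.A_compact.image_of_continuousOn ((D.G i).continuousOn.mono (by rw [D.sG]; exact D.A_subset))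
lemma BH_compact (i : Bool) : IsCompact (D.BH i) :=
  D.A_compact.image_of_continuousOn ((D.H i).continuousOn.mono (by rw [D.sH]; exact D.A_subset))
lemma BG_meas (i : Bool) : MeasurableSet (D.BG i) := (D.BG_compact i).isClosed.measurableSet
lemma BH_meas (i : Bool) : MeasurableSet (D.BH i) := (D.BH_compact i).isClosed.measurableSet

lemma g_meas (i : Bool) : Measurable (D.g i) := by
  classical
  refine ContinuousOn.measurable_piecewise ?_ continuousOn_const measurableSet_ball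
  have := (D.G i).continuousOn
  rwa [D.sG] at this
lemma h_meas (i : Bool) : Measurable (D.h i) := by
  classical
  refine ContinuousOn.measurable_piecewise ?_ continuousOn_const measurableSet_ball
  have := (D.H i).continuousOn
  rwa [D.sH] at this
lemma kg_meas (i : Bool) : Measurable (D.kg i) := by
  classical
  exact ContinuousOn.measurable_piecewise (D.G i).continuousOn_symm continuousOn_const
    (D.G i).open_target.measurableSet
lemma kh_meas (i : Bool) : Measurable (D.kh i) := by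
  classical
  exact ContinuousOn.measurable_piecewise (D.H i).continuousOn_symm continuousOn_const
    (D.H i).open_target.measurableSet

lemma UL_meas (ℓ : Option (Bool × Bool)) : Measurable (D.UL ℓ) := by
  have w := ww_measurable (E := E) D.s
  have kg := D.kg_meas
  have kh := D.kh_meas
  have g := D.g_meas
  have h := D.h_meas
  rcases ℓ with _ | ⟨i, b⟩
  · simp only [UL]
    unfold pA
    fun_prop
  · cases b
    · simp only [UL]
      unfold uC pA pB CC
      fun_prop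
    · simp only [UL]
      unfold pB
      fun_prop

lemma U_meas : Measurable D.U := by
  unfold U
  refine Measurable.ite D.A_meas (D.UL_meas _) (Measurable.ite (D.BG_meas _) (D.UL_meas _)
    (Measurable.ite (D.BG_meas _) (D.UL_meas _) (Measurable.ite (D.BH_meas _) (D.UL_meas _)
    (Measurable.ite (D.BH_meas _) (D.UL_meas _) measurable_const))))

/-- shift constant -/
noncomputable def M : ℝ := D.α + D.τ + 2 * D.s + D.s * D.κ

lemma M_nonneg : 0 ≤ D.M := by
  have h1 := D.hs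
  have h2 := D.hκ
  have h3 := D.hα
  have h4 := D.hτ
  unfold M
  positivity

lemma U_ge {ℓ : Option (Bool × Bool)} {p : E} (hp : p ∈ D.Cl ℓ) : 0 ≤ D.U p + D.M := by
  have h1 := D.hs
  have h2 := D.hκ
  have h3 := D.hα
  have h4 := D.hτ
  have h5 := D.hε
  have h6 := D.hε1
  have h7 : D.s * D.κ * D.ε ^ 2 ≤ D.s * D.κ * 1 := by
    have : D.ε ^ 2 ≤ 1 := by nlinarith
    gcongr
  have h8 : 2 * D.s * D.ε ≤ 2 * D.s * 1 := by gcongr; linarith
  rw [D.U_eq hp]
  unfold M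
  have h9 : 0 < D.s * D.κ := by positivity
  rcases ℓ with _ | ⟨i, b⟩
  · have := D.pA_ge hp
    simp only [UL]
    linarith
  · cases b
    · have := D.uC_ge i hp
      simp only [UL]
      linarith
    · have := D.pB_ge i hp
      simp only [UL]
      linarith

lemma U_le_all (p : E) : D.U p ≤ D.α + D.τ := by
  by_cases h : ∃ ℓ, p ∈ D.Cl ℓ
  · obtain ⟨ℓ, h⟩ := h
    exact D.U_le h
  · push Not at h
    have k0 := h none
    have k1 := h (some (false, true))
    have k2 := h (some (true, true))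
    have k3 := h (some (false, false))
    have k4 := h (some (true, false))
    simp only [Cl] at k0 k1 k2 k3 k4
    have : D.U p = 0 := by
      simp only [U, k0, k1, k2, k3, k4, if_false]
    rw [this]
    have h3 := D.hα
    have h4 := D.hτ
    positivity

/-- the support -/
def S : Set E := {p | p ∈ D.A ∨ ∃ i, p ∈ D.BG i ∨ p ∈ D.BH i}

lemma S_cl {p : E} (hp : p ∈ D.S) : ∃ ℓ, p ∈ D.Cl ℓ := by
  rcases hp with hp | ⟨i, hp | hp⟩
  · exact ⟨none, hp⟩
  · exact ⟨some (i, true), hp⟩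
  · exact ⟨some (i, false), hp⟩

lemma V_sum {p q r : E} (hp : p ∈ D.S) (hq : q ∈ D.S) (hr : r ∈ D.S) :
    ENNReal.ofReal (D.U p + D.M) + ENNReal.ofReal (D.U q + D.M) + ENNReal.ofReal (D.U r + D.M)
      = ENNReal.ofReal (D.U p + D.U q + D.U r + 3 * D.M) := by
  obtain ⟨a, ha⟩ := D.S_cl hp
  obtain ⟨b, hb⟩ := D.S_cl hq
  obtain ⟨c, hc⟩ := D.S_cl hr
  have h1 := D.U_ge ha
  have h2 := D.U_ge hb
  have h3 := D.U_ge hc
  rw [← ENNReal.ofReal_add h1 h2, ← ENNReal.ofReal_add (add_nonneg h1 h2) h3]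
  congr 1
  ring

lemma cost_K {p q r : E} (h1 : p ≠ q) (h2 : p ≠ r) (h3 : q ≠ r) :
    tripleCost D.s (p, q, r) + ENNReal.ofReal (3 * D.M) = ENNReal.ofReal (CC D.s p q r + 3 * D.M) := by
  rw [tripleCost_eq D.s h1 h2 h3, ENNReal.ofReal_add (CC_nonneg _ _ _ _)
    (by have := D.M_nonneg; linarith)]

theorem H1' {p q r : E} (hp : p ∈ D.S) (hq : q ∈ D.S) (hr : r ∈ D.S) :
    ENNReal.ofReal (D.U p + D.M) + ENNReal.ofReal (D.U q + D.M) + ENNReal.ofReal (D.U r + D.M)
      ≤ tripleCost D.s (p, q, r) + ENNReal.ofReal (3 * D.M) := by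
  by_cases hd : p ≠ q ∧ p ≠ r ∧ q ≠ r
  · obtain ⟨h1, h2, h3⟩ := hd
    obtain ⟨a, ha⟩ := D.S_cl hp
    obtain ⟨b, hb⟩ := D.S_cl hq
    obtain ⟨c, hc⟩ := D.S_cl hr
    rw [D.V_sum hp hq hr, D.cost_K h1 h2 h3]
    apply ENNReal.ofReal_le_ofReal
    have := (D.H12 ha hb hc h1 h2 h3).1
    linarith
  · rw [tripleCost_top D.hs hd]
    simp

theorem H2' {p q r : E} (hp : p ∈ D.S) (hq : q ∈ D.S) (hr : r ∈ D.S)
    (hle : tripleCost D.s (p, q, r) + ENNReal.ofReal (3 * D.M) ≤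
    ENNReal.ofReal (D.U p + D.M) + ENNReal.ofReal (D.U q + D.M) + ENNReal.ofReal (D.U r + D.M)) :
    ∃ i, ∃ x ∈ D.A, (p = x ∧ q = D.g i x ∧ r = D.h i x) ∨ (p = x ∧ q = D.h i x ∧ r = D.g i x) ∨
      (p = D.g i x ∧ q = x ∧ r = D.h i x) ∨ (p = D.g i x ∧ q = D.h i x ∧ r = x) ∨
      (p = D.h i x ∧ q = x ∧ r = D.g i x) ∨ (p = D.h i x ∧ q = D.g i x ∧ r = x) := by
  by_cases hd : p ≠ q ∧ p ≠ r ∧ q ≠ r
  · obtain ⟨h1, h2, h3⟩ := hd
    obtain ⟨a, ha⟩ := D.S_cl hp
    obtain ⟨b, hb⟩ := D.S_cl hq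
    obtain ⟨c, hc⟩ := D.S_cl hr
    rw [D.V_sum hp hq hr, D.cost_K h1 h2 h3] at hle
    have g1 := D.U_ge ha
    have g2 := D.U_ge hb
    have g3 := D.U_ge hc
    rw [ENNReal.ofReal_le_ofReal_iff (by linarith)] at hle
    exact (D.H12 ha hb hc h1 h2 h3).2 (by linarith)
  · rw [tripleCost_top D.hs hd, V_sum D hp hq hr] at hle
    simp at hle

lemma ne_of_cl {ℓ ℓ' : Option (Bool × Bool)} (h : ℓ ≠ ℓ') {p q : E} (hp : p ∈ D.Cl ℓ)
    (hq : q ∈ D.Cl ℓ') : p ≠ q := by
  rintro rfl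
  exact h (D.Cl_disj hp hq)

theorem H3' (i : Bool) {x : E} (hx : x ∈ D.A) :
    tripleCost D.s (x, D.g i x, D.h i x) + ENNReal.ofReal (3 * D.M) =
      ENNReal.ofReal (D.U x + D.M) + ENNReal.ofReal (D.U (D.g i x) + D.M)
        + ENNReal.ofReal (D.U (D.h i x) + D.M) ∧
    tripleCost D.s (D.g i x, D.h i x, x) + ENNReal.ofReal (3 * D.M) =
      ENNReal.ofReal (D.U x + D.M) + ENNReal.ofReal (D.U (D.g i x) + D.M)
        + ENNReal.ofReal (D.U (D.h i x) + D.M) ∧
    tripleCost D.s (D.h i x, x, D.g i x) + ENNReal.ofReal (3 * D.M) =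
      ENNReal.ofReal (D.U x + D.M) + ENNReal.ofReal (D.U (D.g i x) + D.M)
        + ENNReal.ofReal (D.U (D.h i x) + D.M) := by
  have hg := D.mg i hx
  have hh := D.mh i hx
  have n1 : x ≠ D.g i x := D.ne_of_cl (ℓ := none) (ℓ' := some (i, true)) (by simp) hx hg
  have n2 : x ≠ D.h i x := D.ne_of_cl (ℓ := none) (ℓ' := some (i, false)) (by simp) hx hh
  have n3 : D.g i x ≠ D.h i x :=
    D.ne_of_cl (ℓ := some (i, true)) (ℓ' := some (i, false)) (by simp) hg hh
  have hS : x ∈ D.S := Or.inl hx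
  have hgS : D.g i x ∈ D.S := Or.inr ⟨i, Or.inl hg⟩
  have hhS : D.h i x ∈ D.S := Or.inr ⟨i, Or.inr hh⟩
  rw [D.V_sum hS hgS hhS, D.cost_K n1 n2 n3, D.cost_K n3 n1.symm n2.symm,
    D.cost_K n2.symm n3.symm n1]
  have e : D.U x + D.U (D.g i x) + D.U (D.h i x) = CC D.s x (D.g i x) (D.h i x) := by
    rw [D.U_eq (ℓ := none) hx, D.U_eq (ℓ := some (i, true)) hg, D.U_eq (ℓ := some (i, false)) hh]
    simp only [UL]
    rw [D.uC_h i hx]
    ring
  have e2 : CC D.s (D.g i x) (D.h i x) x = CC D.s x (D.g i x) (D.h i x) := by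
    rw [CC_swap23, CC_swap12]
  have e3 : CC D.s (D.h i x) x (D.g i x) = CC D.s x (D.g i x) (D.h i x) := by
    rw [CC_swap12, CC_swap23]
  rw [e, e2, e3]
  exact ⟨rfl, rfl, rfl⟩

theorem H4' {ε' : ℝ≥0∞} (hε' : 0 < ε') : ∃ δ' : ℝ, 0 < δ' ∧ ∀ i, ∀ x ∈ D.A, ∀ x' ∈ D.A,
    dist x' x ≤ δ' → tripleCost D.s (x, D.g i x', D.h i x')
      ≤ tripleCost D.s (x', D.g i x', D.h i x') + ε' := by
  set L := 4 * D.s / D.θ with hL
  have hs := D.hs
  have hθ0 := D.hθ0
  have hL0 : 0 < L := by positivity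
  set e : ℝ≥0∞ := min ε' 1 with he
  have he0 : 0 < e := lt_min hε' one_pos
  have heT : e ≠ ⊤ := (lt_of_le_of_lt (min_le_right _ _) ENNReal.one_lt_top).ne
  have her : 0 < e.toReal := ENNReal.toReal_pos he0.ne' heT
  refine ⟨min 1 (e.toReal / (2 * L)), lt_min one_pos (by positivity), ?_⟩
  intro i x hx x' hx' hd
  have hd1 : dist x' x ≤ 1 := hd.trans (min_le_left _ _)
  have hd2 : dist x' x ≤ e.toReal / (2 * L) := hd.trans (min_le_right _ _)
  have hg := D.mg i hx'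
  have hh := D.mh i hx'
  have n1 := D.dist_half (ℓ := none) (ℓ' := some (i, true)) (by simp) hx hg
  have n2 := D.dist_half (ℓ := none) (ℓ' := some (i, false)) (by simp) hx hh
  have n1' := D.dist_half (ℓ := none) (ℓ' := some (i, true)) (by simp) hx' hg
  have n2' := D.dist_half (ℓ := none) (ℓ' := some (i, false)) (by simp) hx' hh
  have m1 := D.dist_le (ℓ := none) (ℓ' := some (i, true)) hx hg
  have m2 := D.dist_le (ℓ := none) (ℓ' := some (i, false)) hx hh
  rw [D.cen_none] at m1 m2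
  have hε1 := D.hε1
  have k1 := ww_lip hs D.hθ hθ0 n1 n1' (by linarith)
    (by rw [sub_sub_sub_cancel_right, ← dist_eq_norm]; exact hd1)
  have k2 := ww_lip hs D.hθ hθ0 n2 n2' (by linarith)
    (by rw [sub_sub_sub_cancel_right, ← dist_eq_norm]; exact hd1)
  rw [sub_sub_sub_cancel_right, ← dist_eq_norm] at k1 k2
  rw [tripleCost_eq D.s (D.ne_of_cl (ℓ := none) (ℓ' := some (i, true)) (by simp) hx hg)
    (D.ne_of_cl (ℓ := none) (ℓ' := some (i, false)) (by simp) hx hh)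
    (D.ne_of_cl (ℓ := some (i, true)) (ℓ' := some (i, false)) (by simp) hg hh),
    tripleCost_eq D.s (D.ne_of_cl (ℓ := none) (ℓ' := some (i, true)) (by simp) hx' hg)
    (D.ne_of_cl (ℓ := none) (ℓ' := some (i, false)) (by simp) hx' hh)
    (D.ne_of_cl (ℓ := some (i, true)) (ℓ' := some (i, false)) (by simp) hg hh)]
  have k3 : L * dist x' x ≤ e.toReal / 2 := by
    calc L * dist x' x ≤ L * (e.toReal / (2 * L)) := by gcongr
      _ = e.toReal / 2 := by field_simp
  have k4 : CC D.s x (D.g i x') (D.h i x') ≤ CC D.s x' (D.g i x') (D.h i x') + e.toReal := by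
    unfold CC
    linarith
  calc ENNReal.ofReal (CC D.s x (D.g i x') (D.h i x'))
      ≤ ENNReal.ofReal (CC D.s x' (D.g i x') (D.h i x') + e.toReal) := ENNReal.ofReal_le_ofReal k4
    _ = ENNReal.ofReal (CC D.s x' (D.g i x') (D.h i x')) + e := by
        rw [ENNReal.ofReal_add (CC_nonneg _ _ _ _) her.le, ENNReal.ofReal_toReal heT]
    _ ≤ _ := by gcongr; exact min_le_left _ _

end Geom
end density
end Crest.Agent.OT3
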