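import Mathlib
import Crest.Prelude.Def_MultiMarginal
import Crest.Agent.OT3.CostIneq
set_option autoImplicit false
set_option linter.unusedSectionVars false
open MeasureTheory ProbabilityTheory Filter Set
open scoped Topology ENNReal ContDiff
open Crest.AnalysisR.OT

namespace Crest.Agent.OT3

section dens
variable {E : Type*} [NormedAddCommGroup E] [InnerProductSpace ℝ E] [FiniteDimensional ℝ E]
  [MeasurableSpace E] [BorelSpace E]

theorem exists_bump {r : ℝ} (hr : 0 < r) : ∃ η : E → ℝ, ContDiff ℝ ∞ η ∧ (∀ x, 0 ≤ η x) ∧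
    (∀ x, x ∉ Metric.closedBall (0 : E) r → η x = 0) ∧ tsupport η ⊆ Metric.closedBall 0 r ∧
    HasCompactSupport η ∧ ∫⁻ x, ENNReal.ofReal (η x ^ 2) = ENNReal.ofReal (1 / 3) := by
  set η0 : E → ℝ := fun x => Real.smoothTransition (r ^ 2 - ‖x‖ ^ 2) with hη0
  have c0 : ContDiff ℝ ∞ η0 :=
    Real.smoothTransition.contDiff.comp (contDiff_const.sub (contDiff_norm_sq ℝ))
  have n0 : ∀ x, 0 ≤ η0 x := fun x => Real.smoothTransition.nonneg _
  have z0 : ∀ x, x ∉ Metric.closedBall (0 : E) r → η0 x = 0 := by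
    intro x hx
    rw [mem_closedBall_zero_iff, not_le] at hx
    apply Real.smoothTransition.zero_of_nonpos
    nlinarith
  have s0 : tsupport η0 ⊆ Metric.closedBall 0 r := by
    apply closure_minimal _ Metric.isClosed_closedBall
    intro x hx
    by_contra hcon
    exact hx (z0 x hcon)
  have k0 : HasCompactSupport η0 := (isCompact_closedBall (0 : E) r).of_isClosed_subset
    (isClosed_tsupport _) s0
  have cc : Continuous (fun x => η0 x ^ 2) := by
    have := c0.continuous
    fun_prop
  have kk : HasCompactSupport (fun x => η0 x ^ 2) := by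
    have : (fun x => η0 x ^ 2) = (fun t : ℝ => t ^ 2) ∘ η0 := rfl
    rw [this]
    exact k0.comp_left (by norm_num)
  have int0 : Integrable (fun x => η0 x ^ 2) := cc.integrable_of_hasCompactSupport kk
  have pos : 0 < ∫ x, η0 x ^ 2 := by
    apply cc.integral_pos_of_hasCompactSupport_nonneg_nonzero kk (fun x => sq_nonneg _) (x := 0)
    have : 0 < η0 0 := by
      apply Real.smoothTransition.pos_of_pos
      simp only [norm_zero]
      nlinarith
    positivity
  set I := ∫ x, η0 x ^ 2 with hI
  set c := Real.sqrt (1 / (3 * I)) with hc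
  have c2 : c ^ 2 = 1 / (3 * I) := Real.sq_sqrt (by positivity)
  refine ⟨fun x => c * η0 x, contDiff_const.mul c0, fun x => mul_nonneg (Real.sqrt_nonneg _) (n0 x),
    fun x hx => by simp only [z0 x hx, mul_zero], ?_, ?_, ?_⟩
  · refine (closure_mono ?_).trans s0
    intro x hx h
    apply hx
    simp only [h, mul_zero]
  · exact k0.mul_left
  · have e : ∀ x, (c * η0 x) ^ 2 = c ^ 2 * η0 x ^ 2 := fun x => by ring
    simp only [e]
    rw [← ofReal_integral_eq_lintegral_ofReal (int0.const_mul _)
      (Eventually.of_forall fun x => by positivity), integral_const_mul, ← hI, c2]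
    congr 1
    field_simp

set_option linter.unusedVariables false in
theorem ofReal_sq_sum {a b0 b1 c0 c1 : ℝ} (ha : 0 ≤ a) (hb0 : 0 ≤ b0) (hb1 : 0 ≤ b1) (hc0 : 0 ≤ c0)
    (hc1 : 0 ≤ c1) (h1 : a * b0 = 0) (h2 : a * b1 = 0) (h3 : a * c0 = 0) (h4 : a * c1 = 0)
    (h5 : b0 * b1 = 0) (h6 : b0 * c0 = 0) (h7 : b0 * c1 = 0) (h8 : b1 * c0 = 0) (h9 : b1 * c1 = 0)
    (h10 : c0 * c1 = 0) :
    ENNReal.ofReal ((a + (b0 + c0) + (b1 + c1)) ^ 2) = ENNReal.ofReal (a ^ 2)
      + ((ENNReal.ofReal (b1 ^ 2) + ENNReal.ofReal (c1 ^ 2))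
        + (ENNReal.ofReal (b0 ^ 2) + ENNReal.ofReal (c0 ^ 2))) := by
  rw [← ENNReal.ofReal_add (by positivity) (by positivity),
    ← ENNReal.ofReal_add (by positivity) (by positivity),
    ← ENNReal.ofReal_add (by positivity) (by positivity),
    ← ENNReal.ofReal_add (by positivity) (by positivity)]
  congr 1
  linear_combination 2 * h1 + 2 * h2 + 2 * h3 + 2 * h4 + 2 * h5 + 2 * h6 + 2 * h7 + 2 * h8
    + 2 * h9 + 2 * h10

namespace Geom
variable (D : Geom E)

theorem exists_density : ∃ (η ρ : E → ℝ), (∀ x, 0 ≤ ρ x) ∧ ContDiff ℝ ∞ ρ ∧ HasCompactSupport ρ ∧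
    ContDiff ℝ ∞ (fun x => Real.sqrt (ρ x)) ∧ (∀ x, x ∉ D.A → η x = 0) ∧ Continuous η ∧
    ∫⁻ x, ENNReal.ofReal (η x ^ 2) = ENNReal.ofReal (1 / 3) ∧
    ∀ φ : E → ℝ≥0∞, Measurable φ → (∫⁻ p, φ p * ENNReal.ofReal (ρ p))
      = (∫⁻ x, φ x * ENNReal.ofReal (η x ^ 2))
      + (1 / 2) * ∑ i : Bool, ((∫⁻ x, φ (D.g i x) * ENNReal.ofReal (η x ^ 2))
        + (∫⁻ x, φ (D.h i x) * ENNReal.ofReal (η x ^ 2))) := by
  obtain ⟨η, hη, hη0, hηz, hηs, hηc, hηI⟩ := exists_bump (E := E) D.hr
  have hsub : ∀ i, tsupport η ⊆ (D.G i).source := fun i => by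
    rw [D.sG]; exact hηs.trans D.A_subset
  have hsub' : ∀ i, tsupport η ⊆ (D.H i).source := fun i => by
    rw [D.sH]; exact hηs.trans D.A_subset
  have hG := fun i => smooth_pushforward (D.cG i) hη hη0 hηc (hsub i)
  have hH := fun i => smooth_pushforward (D.cH i) hη hη0 hηc (hsub' i)
  choose b hb1 hb2 hb3 hb4 using hG
  choose c hc1 hc2 hc3 hc4 using hH
  have bz : ∀ i y, y ∉ D.BG i → b i y = 0 := fun i y hy => hb3 i y fun h => hy (by
    obtain ⟨x, hx, rfl⟩ := h
    exact ⟨x, hηs hx, rfl⟩)
  have cz : ∀ i y, y ∉ D.BH i → c i y = 0 := fun i y hy => hc3 i y fun h => hy (by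
    obtain ⟨x, hx, rfl⟩ := h
    exact ⟨x, hηs hx, rfl⟩)
  set F : Option (Bool × Bool) → E → ℝ := fun ℓ => match ℓ with
    | none => η
    | some (i, true) => b i
    | some (i, false) => c i with hF
  have Fz : ∀ ℓ y, y ∉ D.Cl ℓ → F ℓ y = 0 := by
    intro ℓ y hy
    rcases ℓ with _ | ⟨i, a⟩
    · exact hηz y hy
    · cases a
      · exact cz i y hy
      · exact bz i y hy
  have Fd : ∀ ℓ ℓ', ℓ ≠ ℓ' → ∀ y, F ℓ y * F ℓ' y = 0 := by
    intro ℓ ℓ' h y
    by_cases h1 : y ∈ D.Cl ℓ
    · have h2 : y ∉ D.Cl ℓ' := fun h2 => h (D.Cl_disj h1 h2)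
      rw [Fz ℓ' y h2, mul_zero]
    · rw [Fz ℓ y h1, zero_mul]
  set R : E → ℝ := fun x => η x + (b false x + c false x) + (b true x + c true x) with hR
  have R0 : ∀ x, 0 ≤ R x := fun x => by
    have := hη0 x
    have := hb2 false x
    have := hb2 true x
    have := hc2 false x
    have := hc2 true x
    simp only [hR]
    positivity
  have Rc : ContDiff ℝ ∞ R :=
    (hη.add ((hb1 false).add (hc1 false))).add ((hb1 true).add (hc1 true))
  have Rsq : ∀ x, ENNReal.ofReal (R x ^ 2) = ENNReal.ofReal (η x ^ 2)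
      + ((ENNReal.ofReal (b true x ^ 2) + ENNReal.ofReal (c true x ^ 2))
        + (ENNReal.ofReal (b false x ^ 2) + ENNReal.ofReal (c false x ^ 2))) := by
    intro x
    exact ofReal_sq_sum (hη0 x) (hb2 false x) (hb2 true x) (hc2 false x) (hc2 true x)
      (Fd none (some (false, true)) (by simp) x) (Fd none (some (true, true)) (by simp) x)
      (Fd none (some (false, false)) (by simp) x) (Fd none (some (true, false)) (by simp) x)
      (Fd (some (false, true)) (some (true, true)) (by simp) x)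
      (Fd (some (false, true)) (some (false, false)) (by simp) x)
      (Fd (some (false, true)) (some (true, false)) (by simp) x)
      (Fd (some (true, true)) (some (false, false)) (by simp) x)
      (Fd (some (true, true)) (some (true, false)) (by simp) x)
      (Fd (some (false, false)) (some (true, false)) (by simp) x)
  refine ⟨η, fun x => R x ^ 2, fun x => sq_nonneg _, Rc.pow 2, ?_, ?_, hηz, hη.continuous, hηI, ?_⟩
  · set K : Set E := D.A ∪ (D.BG false ∪ D.BH false) ∪ (D.BG true ∪ D.BH true) with hK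
    have hKc : IsCompact K := (D.A_compact.union ((D.BG_compact _).union (D.BH_compact _))).union
      ((D.BG_compact _).union (D.BH_compact _))
    refine HasCompactSupport.intro hKc fun x hx => ?_
    simp only [hK, mem_union, not_or] at hx
    have e1 := hηz x hx.1.1
    have e2 := bz false x hx.1.2.1
    have e3 := cz false x hx.1.2.2
    have e4 := bz true x hx.2.1
    have e5 := cz true x hx.2.2
    simp only [hR, e1, e2, e3, e4, e5]
    norm_num
  · have : (fun x => Real.sqrt (R x ^ 2)) = R := by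
      funext x
      rw [Real.sqrt_sq (R0 x)]
    rw [this]
    exact Rc
  · intro φ hφ
    have mη : Measurable (fun x => ENNReal.ofReal (η x ^ 2)) := by
      have := hη.continuous.measurable
      fun_prop
    have mb : ∀ i, Measurable (fun x => ENNReal.ofReal (b i x ^ 2)) := fun i => by
      have := (hb1 i).continuous.measurable
      fun_prop
    have mc : ∀ i, Measurable (fun x => ENNReal.ofReal (c i x ^ 2)) := fun i => by
      have := (hc1 i).continuous.measurable
      fun_prop
    simp only [Rsq, mul_add]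
    have mb0 := mb true
    have mb1 := mb false
    have mc0 := mc true
    have mc1 := mc false
    rw [lintegral_add_left (by fun_prop), lintegral_add_left (by fun_prop),
      lintegral_add_left (by fun_prop), lintegral_add_left (by fun_prop)]
    rw [hb4 true φ hφ, hb4 false φ hφ, hc4 true φ hφ, hc4 false φ hφ]
    have eg : ∀ i, ∫⁻ x, φ (D.g i x) * ENNReal.ofReal (η x ^ 2)
        = ∫⁻ x, φ (D.G i x) * ENNReal.ofReal (η x ^ 2) := fun i => by
      congr 1
      funext x
      by_cases hx : x ∈ D.A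
      · rw [D.g_eq i hx]
      · rw [hηz x hx]; simp
    have eh : ∀ i, ∫⁻ x, φ (D.h i x) * ENNReal.ofReal (η x ^ 2)
        = ∫⁻ x, φ (D.H i x) * ENNReal.ofReal (η x ^ 2) := fun i => by
      congr 1
      funext x
      by_cases hx : x ∈ D.A
      · rw [D.h_eq i hx]
      · rw [hηz x hx]; simp
    simp only [Fintype.sum_bool, eg, eh, mul_add]

theorem main (hE : Nontrivial E) : ∃ ρ : E → ℝ, (∀ x, 0 ≤ ρ x) ∧ ContDiff ℝ ∞ ρ ∧
    HasCompactSupport ρ ∧ ContDiff ℝ ∞ (fun x => Real.sqrt (ρ x)) ∧ ∫ x, ρ x = 1 ∧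
    ∃ T : TwoBranch E, T.μ = measOfDensity ρ ∧ T.c = tripleCost D.s := by
  obtain ⟨η, ρ, h1, h2, h3, h4, h5, h6, h7, h8⟩ := D.exists_density
  have mη : Measurable (fun x => ENNReal.ofReal (η x ^ 2)) := by
    have := h6.measurable
    fun_prop
  have mρ : Measurable (fun x => ENNReal.ofReal (ρ x)) := by
    have := h2.continuous.measurable
    fun_prop
  set μA : Measure E := volume.withDensity (fun x => ENNReal.ofReal (η x ^ 2)) with hμA
  have iA : ∀ φ : E → ℝ≥0∞, Measurable φ → ∫⁻ x, φ x ∂μA = ∫⁻ x, φ x * ENNReal.ofReal (η x ^ 2) := by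
    intro φ hφ
    rw [hμA, lintegral_withDensity_eq_lintegral_mul _ mη hφ]
    simp only [Pi.mul_apply, mul_comm]
  have iρ : ∀ φ : E → ℝ≥0∞, Measurable φ → ∫⁻ x, φ x ∂(measOfDensity ρ)
      = ∫⁻ x, φ x * ENNReal.ofReal (ρ x) := by
    intro φ hφ
    rw [measOfDensity, lintegral_withDensity_eq_lintegral_mul _ mρ hφ]
    simp only [Pi.mul_apply, mul_comm]
  have mg := D.g_meas
  have mh := D.h_meas
  have LI : ∀ φ : E → ℝ≥0∞, Measurable φ → ∫⁻ p, φ p ∂(measOfDensity ρ) = ∫⁻ x, φ x ∂μA
    + (1 / 2) * ∑ i : Bool, (∫⁻ x, φ (D.g i x) ∂μA + ∫⁻ x, φ (D.h i x) ∂μA) := by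
    intro φ hφ
    rw [iρ φ hφ, h8 φ hφ, iA φ hφ]
    congr 2
    refine Finset.sum_congr rfl fun i _ => ?_
    rw [iA (fun x => φ (D.g i x)) (hφ.comp (mg i)), iA (fun x => φ (D.h i x)) (hφ.comp (mh i))]
  have uA : μA univ = ENNReal.ofReal (1 / 3) := by
    have := iA (fun _ => 1) measurable_const
    simp only [lintegral_const, one_mul, h7] at this
    exact this
  have uρ : (measOfDensity ρ) univ = 1 := by
    have := LI (fun _ => 1) measurable_const
    simp only [lintegral_const, one_mul, Fintype.sum_bool, uA] at this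
    rw [this]
    rw [← ENNReal.ofReal_add (by norm_num) (by norm_num),
      ← ENNReal.ofReal_add (by norm_num) (by norm_num)]
    have e : (1 / 2 : ℝ≥0∞) = ENNReal.ofReal (1 / 2) := by
      rw [ENNReal.ofReal_div_of_pos (by norm_num)]
      simp
    rw [e, ← ENNReal.ofReal_mul (by norm_num), ← ENNReal.ofReal_add (by norm_num) (by norm_num)]
    norm_num
  have intρ : ∫ x, ρ x = 1 := by
    rw [integral_eq_lintegral_of_nonneg_ae (Eventually.of_forall h1)
      h2.continuous.aestronglyMeasurable]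
    have : ∫⁻ x, ENNReal.ofReal (ρ x) = (measOfDensity ρ) univ := by
      rw [measOfDensity, withDensity_apply _ MeasurableSet.univ, Measure.restrict_univ]
    rw [this, uρ]
    simp
  have aeA : ∀ᵐ x ∂μA, x ∈ D.A := by
    have mi : Measurable (D.Aᶜ.indicator (fun _ => (1 : ℝ≥0∞))) :=
      measurable_const.indicator D.A_meas.compl
    have := iA _ mi
    have z : ∫⁻ x, D.Aᶜ.indicator (fun _ => (1 : ℝ≥0∞)) x * ENNReal.ofReal (η x ^ 2) = 0 := by
      rw [lintegral_congr (g := fun _ => 0)]
      · simp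
      · intro x
        by_cases hx : x ∈ D.A
        · simp [hx]
        · rw [h5 x hx]; simp
    rw [z, lintegral_indicator D.A_meas.compl] at this
    simp only [lintegral_const, one_mul, Measure.restrict_apply MeasurableSet.univ,
      univ_inter] at this
    exact this
  have hu1 : Nontrivial E := hE
  have hna : ∀ x, μA {x} = 0 := by
    intro x
    have hac : μA ≪ volume := withDensity_absolutelyContinuous _ _
    apply hac
    exact measure_singleton x
  have Vb : ∀ p, ENNReal.ofReal (D.U p + D.M) ≤ ENNReal.ofReal (D.α + D.τ + D.M) := fun p =>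
    ENNReal.ofReal_le_ofReal (by have := D.U_le_all p; linarith)
  have mU := D.U_meas
  refine ⟨ρ, h1, h2, h3, h4, intρ, ?_⟩
  refine ⟨{
    μA := μA
    μ := measOfDensity ρ
    A := D.A
    BG := D.BG
    BH := D.BH
    g := D.g
    h := D.h
    kg := D.kg
    kh := D.kh
    c := tripleCost D.s
    V := fun p => ENNReal.ofReal (D.U p + D.M)
    K := ENNReal.ofReal (3 * D.M)
    fin := ⟨by rw [uA]; exact ENNReal.ofReal_lt_top⟩
    prob := ⟨uρ⟩
    hna := hna
    hA := D.A_meas
    hBG := D.BG_meas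
    hBH := D.BH_meas
    hμA := aeA
    hpos := by
      have : μA D.A = μA univ := by
        refine measure_congr ?_
        filter_upwards [aeA] with x hx
        exact propext ⟨fun _ => trivial, fun _ => hx⟩
      rw [this, uA]
      simp
    hg := D.g_meas
    hh := D.h_meas
    hkg := D.kg_meas
    hkh := D.kh_meas
    dAG := fun i x hx h => by
      have := D.Cl_disj (ℓ := none) (ℓ' := some (i, true)) hx h
      simp at this
    dAH := fun i x hx h => by
      have := D.Cl_disj (ℓ := none) (ℓ' := some (i, false)) hx h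
      simp at this
    dGH := fun i j x hx h => by
      have := D.Cl_disj (ℓ := some (i, true)) (ℓ' := some (j, false)) hx h
      simp at this
    dGG := fun x hx h => by
      have := D.Cl_disj (ℓ := some (true, true)) (ℓ' := some (false, true)) hx h
      simp at this
    dHH := fun x hx h => by
      have := D.Cl_disj (ℓ := some (true, false)) (ℓ' := some (false, false)) hx h
      simp at this
    mg := fun i x hx => D.mg i hx
    mh := fun i x hx => D.mh i hx
    lg := fun i x hx => D.lg i hx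
    lh := fun i x hx => D.lh i hx
    LI := LI
    hc := by
      unfold tripleCost pairCost
      fun_prop
    hV := by fun_prop
    hK := ENNReal.ofReal_ne_top
    hVfin := by
      refine ne_of_lt (lt_of_le_of_lt (lintegral_mono Vb) ?_)
      rw [lintegral_const, uρ, mul_one]
      exact ENNReal.ofReal_lt_top
    S := D.S
    hS := rfl
    H1 := fun p q r hp hq hr => D.H1' hp hq hr
    H2 := fun p q r hp hq hr => D.H2' hp hq hr
    H3 := fun i x hx => D.H3' i hx
    H4 := fun ε' hε' => D.H4' hε' }, rfl, rfl⟩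

end Geom
end dens
end Crest.Agent.OT3
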