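import Mathlib
import Crest.Prelude.Def_MultiMarginal
import Crest.Agent.OT3.Density
set_option autoImplicit false
set_option linter.unusedSectionVars false
open MeasureTheory ProbabilityTheory Filter Set
open scoped Topology ENNReal ContDiff
open Crest.AnalysisR.OT

namespace Crest.Agent.OT3

section params
variable {E : Type*} [NormedAddCommGroup E] [InnerProductSpace ℝ E] [FiniteDimensional ℝ E]

theorem exists_eps {s κ : ℝ} (hs : 0 < s) : ∃ α τ ε : ℝ, 0 < α ∧ 0 < τ ∧ 0 < ε ∧ ε ≤ 1 / 8 ∧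
    2 * s * ε ≤ τ ∧
    2 * (1 - 2 * ε) ^ (-s) + (2 - 2 * ε) ^ (-s) + 2 * s * κ * ε ^ 2 + 2 * s * ε ≤ α + τ ∧
    α + 2 * τ < 2 * (1 + 2 * ε) ^ (-s) + (√2 + 2 * ε) ^ (-s) ∧
    τ < (2 + 2 * ε) ^ (-s) ∧
    3 * (α + τ) < (2 * ε) ^ (-s) := by
  have h2 : √2 < 2 := by
    rw [Real.sqrt_lt' (by norm_num)]; norm_num
  have h2p : 0 < √2 := Real.sqrt_pos.2 (by norm_num)
  set P := (2 : ℝ) ^ (-s) with hP
  set Q := (√2) ^ (-s) with hQ
  have hPQ : P < Q := Real.rpow_lt_rpow_of_neg h2p h2 (by linarith)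
  have hP0 : 0 < P := Real.rpow_pos_of_pos (by norm_num) _
  set α := 2 + P with hα
  set τ := min ((Q - P) / 4) (P / 2) with hτ
  have hτ0 : 0 < τ := lt_min (by linarith) (by linarith)
  have hτ1 : τ ≤ (Q - P) / 4 := min_le_left _ _
  have hτ2 : τ ≤ P / 2 := min_le_right _ _
  have t1 : Tendsto (fun ε : ℝ => 2 * s * ε) (𝓝 0) (𝓝 (2 * s * 0)) := by
    apply Continuous.tendsto; fun_prop
  have tp : ∀ (c d : ℝ), 0 < c → Tendsto (fun ε : ℝ => (c + d * ε) ^ (-s)) (𝓝 0) (𝓝 (c ^ (-s))) := by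
    intro c d hc
    have h : ContinuousAt (fun ε : ℝ => (c + d * ε) ^ (-s)) 0 := by
      apply ContinuousAt.rpow_const
      · fun_prop
      · left
        simp [hc.ne']
    have h' := h.tendsto
    simpa using h'
  have u1 := tp 1 (-2) (by norm_num)
  have u2 := tp 2 (-2) (by norm_num)
  have u3 := tp 1 2 (by norm_num)
  have u4 := tp (√2) 2 h2p
  have u5 := tp 2 2 (by norm_num)
  rw [Real.one_rpow] at u1 u3
  have q : Tendsto (fun ε : ℝ => 2 * s * κ * ε ^ 2) (𝓝 0) (𝓝 (2 * s * κ * 0 ^ 2)) := by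
    apply Continuous.tendsto; fun_prop
  have e1 : ∀ᶠ ε : ℝ in 𝓝 0, 2 * s * ε < τ := t1.eventually_lt_const (by simpa using hτ0)
  have e2 : ∀ᶠ ε : ℝ in 𝓝 0, 2 * (1 + (-2) * ε) ^ (-s) + (2 + (-2) * ε) ^ (-s)
      + 2 * s * κ * ε ^ 2 + 2 * s * ε < α + τ := by
    have := (((u1.const_mul 2).add u2).add q).add t1
    refine this.eventually_lt_const ?_
    norm_num
    rw [← hP]
    linarith
  have e3 : ∀ᶠ ε : ℝ in 𝓝 0, α + 2 * τ < 2 * (1 + 2 * ε) ^ (-s) + (√2 + 2 * ε) ^ (-s) := by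
    have := (u3.const_mul 2).add u4
    refine this.eventually_const_lt ?_
    rw [← hQ]
    linarith
  have e4 : ∀ᶠ ε : ℝ in 𝓝 0, τ < (2 + 2 * ε) ^ (-s) := by
    refine u5.eventually_const_lt ?_
    rw [← hP]
    linarith
  have e5 : ∀ᶠ ε : ℝ in 𝓝[>] 0, 3 * (α + τ) < (2 * ε) ^ (-s) := by
    have h1 : Tendsto (fun ε : ℝ => 2 * ε) (𝓝[>] 0) (𝓝[>] 0) := by
      rw [tendsto_nhdsWithin_iff]
      constructor
      · have : Tendsto (fun ε : ℝ => 2 * ε) (𝓝 0) (𝓝 (2 * 0)) := by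
          apply Continuous.tendsto; fun_prop
        rw [mul_zero] at this
        exact this.mono_left nhdsWithin_le_nhds
      · filter_upwards [self_mem_nhdsWithin] with x hx
        have : (0 : ℝ) < x := hx
        simp [this]
    exact ((tendsto_rpow_neg_nhdsGT_zero (y := -s) (by linarith)).comp h1).eventually_gt_atTop _
  have e6 : ∀ᶠ ε : ℝ in 𝓝 0, ε < 1 / 8 := eventually_lt_nhds (by norm_num)
  have all : ∀ᶠ ε : ℝ in 𝓝[>] 0, (2 * s * ε < τ) ∧ (2 * (1 + (-2) * ε) ^ (-s) + (2 + (-2) * ε) ^ (-s)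
      + 2 * s * κ * ε ^ 2 + 2 * s * ε < α + τ) ∧ (α + 2 * τ < 2 * (1 + 2 * ε) ^ (-s) + (√2 + 2 * ε) ^ (-s))
      ∧ (τ < (2 + 2 * ε) ^ (-s)) ∧ ε < 1 / 8 ∧ (3 * (α + τ) < (2 * ε) ^ (-s)) ∧ 0 < ε := by
    filter_upwards [e1.filter_mono nhdsWithin_le_nhds, e2.filter_mono nhdsWithin_le_nhds,
      e3.filter_mono nhdsWithin_le_nhds, e4.filter_mono nhdsWithin_le_nhds,
      e6.filter_mono nhdsWithin_le_nhds, e5, self_mem_nhdsWithin] with ε a b c d e f g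
    exact ⟨a, b, c, d, e, f, g⟩
  obtain ⟨ε, a, b, c, d, e, f, g⟩ := all.exists
  refine ⟨α, τ, ε, by positivity, hτ0, g, e.le, a.le, ?_, c, d, f⟩
  have k1 : 1 - 2 * ε = 1 + (-2) * ε := by ring
  have k2 : 2 - 2 * ε = 2 + (-2) * ε := by ring
  rw [k1, k2]
  exact b.le

theorem exists_geom {s : ℝ} (hs : 0 < s) (u : Bool → E) (hu : ∀ i, ‖u i‖ = 1)
    (huo : inner ℝ (u false) (u true) = 0) : ∃ D : Geom E, D.s = s := by
  set θ : ℝ := (4 : ℝ) ^ (-(s + 2) / 2) with hθ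
  have hθ0 : 0 < θ := Real.rpow_pos_of_pos (by norm_num) _
  have hθ1 : θ ≤ 1 / 4 := by
    have h1 : (4 : ℝ) ^ (-(s + 2) / 2) ≤ (4 : ℝ) ^ (-1 : ℝ) :=
      Real.rpow_le_rpow_of_exponent_le (by norm_num) (by linarith)
    rw [Real.rpow_neg_one] at h1
    rw [hθ]
    linarith
  set κ : ℝ := 2 / θ with hκ
  have hκθ : κ * θ = 2 := by rw [hκ]; field_simp
  have hκ8 : 8 ≤ κ := by
    rw [hκ, le_div_iff₀ hθ0]
    linarith
  obtain ⟨α, τ, ε, hα, hτ, hε, hε1, N1, N2, N3, N4, N5⟩ := exists_eps (κ := κ) hs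
  have hc := fun i => exists_charts hs hθ hθ0 hθ1 hκ8 hκθ (hu i) hε
  choose δ₀ hδ0 hδε hch using hc
  set δ := min (δ₀ false) (δ₀ true) with hδ
  have hδp : 0 < δ := lt_min (hδ0 _) (hδ0 _)
  have hδle : ∀ i, δ ≤ δ₀ i := fun i => by
    cases i
    · exact min_le_left _ _
    · exact min_le_right _ _
  have hc2 := fun i => hch i δ hδp (hδle i)
  choose G H sG sH cG cH hGH using hc2
  exact ⟨{
    s := s, κ := κ, θ := θ, α := α, τ := τ, ε := ε, δ := δ, r := δ / 2, u := u, G := G, H := H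
    hs := hs, hθ := hθ, hθ0 := hθ0, hθ1 := hθ1, hκ := hκ8, hκθ := hκθ, hα := hα, hτ := hτ
    hε := hε, hε1 := hε1, hr := by linarith, hrδ := by linarith
    hδ := (hδle false).trans (hδε false)
    hu := hu, huo := huo, sG := sG, sH := sH, cG := cG, cH := cH
    nG := fun i x hx => (hGH i x hx).1
    nH := fun i x hx => (hGH i x hx).2.1
    hP := fun i x hx => (hGH i x hx).2.2
    N1 := N1, N2 := N2, N3 := N3, N4 := N4, N5 := N5 }, rfl⟩

variable [MeasurableSpace E] [BorelSpace E]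

theorem final {s : ℝ} (hs : 0 < s) (u : Bool → E) (hu : ∀ i, ‖u i‖ = 1)
    (huo : inner ℝ (u false) (u true) = 0) :
    ∃ ρ : E → ℝ, (∀ x, 0 ≤ ρ x) ∧ ContDiff ℝ ∞ ρ ∧ HasCompactSupport ρ ∧
      ContDiff ℝ ∞ (fun x => Real.sqrt (ρ x)) ∧ ∫ x, ρ x = 1 ∧
      ∃ π₀ : Measure (E × E × E),
        IsCoupling₃ (measOfDensity ρ) π₀ ∧ ∫⁻ p, tripleCost s p ∂π₀ < ⊤ ∧
        (∀ π : Measure (E × E × E), IsCoupling₃ (measOfDensity ρ) π →
          ∫⁻ p, tripleCost s p ∂π₀ ≤ ∫⁻ p, tripleCost s p ∂π) ∧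
        (∀ T₂ T₃ : E → E, Measurable T₂ → Measurable T₃ →
          (measOfDensity ρ).map T₂ = measOfDensity ρ → (measOfDensity ρ).map T₃ = measOfDensity ρ →
          ∫⁻ p, tripleCost s p ∂π₀ < ∫⁻ x, tripleCost s (x, T₂ x, T₃ x) ∂(measOfDensity ρ)) ∧
        (∀ ε : ℝ≥0∞, 0 < ε → ∃ T₂ T₃ : E → E, Measurable T₂ ∧ Measurable T₃ ∧
          (measOfDensity ρ).map T₂ = measOfDensity ρ ∧ (measOfDensity ρ).map T₃ = measOfDensity ρ ∧
          ∫⁻ x, tripleCost s (x, T₂ x, T₃ x) ∂(measOfDensity ρ) < ∫⁻ p, tripleCost s p ∂π₀ + ε) := by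
  obtain ⟨D, rfl⟩ := exists_geom hs u hu huo
  have hnt : Nontrivial E := ⟨⟨u false, 0, fun h => by
    have := hu false
    rw [h, norm_zero] at this
    exact zero_ne_one this⟩⟩
  obtain ⟨ρ, h1, h2, h3, h4, h5, T, hTμ, hTc⟩ := D.main hnt
  have hne : Nonempty E := ⟨0⟩
  refine ⟨ρ, h1, h2, h3, h4, h5, T.plan, ?_, ?_, ?_, ?_, ?_⟩
  · rw [← hTμ]; exact T.plan_coupling
  · rw [← hTc]; exact T.plan_cost_lt_top
  · intro π hπ
    rw [← hTc]
    rw [← hTμ] at hπ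
    exact T.plan_optimal hπ
  · intro T₂ T₃ m2 m3 p2 p3
    rw [← hTμ] at p2 p3 ⊢
    rw [← hTc]
    exact T.not_attained m2 m3 p2 p3
  · intro ε hε
    rw [← hTμ, ← hTc]
    exact T.approx hε

end params
end Crest.Agent.OT3
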